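import Mathlib

/-! Curves on an infinite cyclic cover: definitions. -/

open Set Filter Asymptotics
open scoped Manifold ContDiff Topology

noncomputable section

namespace Vale.Agent.P267C

variable (E : Type) [NormedAddCommGroup E] [NormedSpace ℂ E] {M : Type} [TopologicalSpace M]
  [ChartedSpace E M]

/-- Holomorphic near a point of the manifold. -/
abbrev An {F : Type} [NormedAddCommGroup F] [NormedSpace ℂ F] (f : M → F) (x : M) : Prop :=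
  ContMDiffAt 𝓘(ℂ, E) 𝓘(ℂ, F) ω f x

/-- Holomorphic near a point, with values in the manifold. -/
abbrev Ho {F : Type} [NormedAddCommGroup F] [NormedSpace ℂ F] (φ : F → M) (z : F) : Prop :=
  ContMDiffAt 𝓘(ℂ, F) 𝓘(ℂ, E) ω φ z

/-- Complex differentiable at one point. -/
abbrev CD (f : M → ℂ) (x : M) : Prop := MDifferentiableAt 𝓘(ℂ, E) 𝓘(ℂ, ℂ) f x

/-- Locally comparable with the modulus of a holomorphic function. -/
def Sec (N : M → ℝ) : Prop := ∀ x, ∃ f : M → ℂ, An E f x ∧ N =Θ[𝓝 x] f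

/-- Local coordinates centred at `p`. -/
structure Crd (c : M → ℂ × ℂ) (ψ : ℂ × ℂ → M) (p : M) : Prop where
  c0 : c p = 0
  an : An E c p
  ho : Ho E ψ 0
  l : ∀ᶠ y in 𝓝 p, ψ (c y) = y
  r : ∀ᶠ v in 𝓝 0, c (ψ v) = v

/-- A smooth point of the zero set. -/
def Sm (N : M → ℝ) (p : M) : Prop :=
  ∃ c ψ, Crd E c ψ p ∧ ∀ᶠ y in 𝓝 p, (N y = 0 ↔ (c y).2 = 0)

/-- A function on `D` with one simple pole and a limit at the negative end. -/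
structure Pole (t : M → ℝ) (D : Set M) (c : M → ℂ × ℂ) (p : M) (f : M → ℂ) (κ : ℂ) : Prop where
  cd : ∀ x ∈ D, x ≠ p → CD E f x
  loc : ∃ h : M → ℂ, ∀ᶠ y in 𝓝 p, y ∈ D → CD E h y ∧ (y ≠ p → f y = (c y).1⁻¹ + h y)
  lim : Tendsto f (comap t atBot ⊓ 𝓟 D) (𝓝 κ)

/-- A rational curve. -/
def RatC (C : Set M) : Prop :=
  ∃ φ₀ φ₁ : ℂ → M, (∀ z, Ho E φ₀ z) ∧ (∀ z, Ho E φ₁ z) ∧ (∀ z, z ≠ 0 → φ₁ z = φ₀ z⁻¹) ∧
    Function.Injective φ₀ ∧ C = range φ₀ ∪ range φ₁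

/-- `f` restricted to `D` is a local coordinate at `y`. -/
def Good (D : Set M) (f : M → ℂ) (y : M) : Prop :=
  ∃ σ : ℂ → M, Ho E σ (f y) ∧ σ (f y) = y ∧ (∀ᶠ w in 𝓝 (f y), σ w ∈ D ∧ f (σ w) = w) ∧
    ∀ᶠ x in 𝓝 y, x ∈ D → σ (f x) = x

/-- `f` restricted to `D` is constant near `y`. -/
def Flat (D : Set M) (f : M → ℂ) (y : M) : Prop := ∀ᶠ x in 𝓝 y, x ∈ D → f x = f y

/-- No holomorphic disc in `D` with `p` in its closure has a puncture at the negative end. -/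
def NoDeep (t : M → ℝ) (D : Set M) (p : M) : Prop :=
  ∀ (Ω : Set ℂ) (Φ : ℂ → M) (s : ℂ), IsOpen Ω → IsPreconnected Ω →
    (∀ w ∈ Ω, Ho E Φ w ∧ Φ w ∈ D) → (∀ᶠ w in 𝓝[≠] s, w ∈ Ω) →
    Tendsto (fun w => t (Φ w)) (𝓝[≠] s) atBot → p ∉ closure (Φ '' Ω)

/-- The data of a function of degree one on a curve. -/
structure Cu (t N : M → ℝ) (c : M → ℂ × ℂ) (ψ : ℂ × ℂ → M) (p : M) (f : M → ℂ) (κ : ℂ) : Prop where
  tc : Continuous t
  tp : ∀ a b, IsCompact (t ⁻¹' Icc a b)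
  sec : Sec E N
  cnt : {x | N x = 0 ∧ ¬ Sm E N x}.Countable
  top : ∃ T, ∀ x, N x = 0 → t x ≤ T
  crd : Crd E c ψ p
  sm : ∀ᶠ y in 𝓝 p, (N y = 0 ↔ (c y).2 = 0)
  pole : Pole E t {x | N x = 0} c p f κ

/-- The exceptional values. -/
def Sv (D : Set M) (f : M → ℂ) (p : M) (κ : ℂ) : Set ℂ :=
  insert κ (f '' {y | y ∈ D ∧ y ≠ p ∧ ¬ Good E D f y ∧ ¬ Flat D f y})

omit [TopologicalSpace M] in
/-- The translates of the norms. -/
def Nk {n : ℕ} (g : Equiv.Perm M) (N : Fin n → M → ℝ) (a : Fin n × ℤ) (x : M) : ℝ :=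
  N a.1 ((g ^ a.2) x)

omit [TopologicalSpace M] in
/-- The product of finitely many powers of translates. -/
def Pw {n : ℕ} (g : Equiv.Perm M) (N : Fin n → M → ℝ) (W : Finset (Fin n × ℤ))
    (u : Fin n × ℤ → ℕ) (x : M) : ℝ := ∏ a ∈ W, Nk g N a x ^ u a

omit [TopologicalSpace M] in
/-- The product of finitely many translates. -/
def Pr {n : ℕ} (g : Equiv.Perm M) (N : Fin n → M → ℝ) (W : Finset (Fin n × ℤ)) (x : M) : ℝ :=
  ∏ a ∈ W, Nk g N a x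

/-- The window. -/
def Win (n L : ℕ) : Finset (Fin n × ℤ) := Finset.univ ×ˢ Finset.Icc (-(L : ℤ)) L

omit [TopologicalSpace M] in
/-- The union of the translates of a set. -/
def Sat (g : Equiv.Perm M) (C : Set M) : Set M := ⋃ k : ℤ, (g ^ k : Equiv.Perm M) '' C

/-- What the analysis on the cover provides. -/
structure Cv {n : ℕ} (t : M → ℝ) (g : Equiv.Perm M) (N : Fin n → M → ℝ) : Prop where
  dim : Module.finrank ℂ E = 2
  tc : Continuous t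
  tp : ∀ a b, IsCompact (t ⁻¹' Icc a b)
  tg : ∀ x, t (g x) = t x + 1
  gh : ∀ (k : ℤ) x, ContMDiffAt 𝓘(ℂ, E) 𝓘(ℂ, E) ω (g ^ k : Equiv.Perm M) x
  sec : ∀ i, Sec E (N i)
  top : ∃ T, ∀ i x, T ≤ t x → N i x ≠ 0
  hE : ∀ W c ψ p, Crd E c ψ p → (∀ᶠ y in 𝓝 p, (Pr g N W y = 0 ↔ (c y).2 = 0)) →
    ∃ f κ, Pole E t {x | Pr g N W x = 0} c p f κ
  hD : ∀ W a, ∃ F : M → ℂ, (∀ᶠ x in comap t atBot, Pr g N W x = 0 → CD E F x) ∧
    F =Θ[comap t atBot ⊓ 𝓟 {x | Pr g N W x = 0}] Nk g N a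
  hC : ∀ i, (∃ K : Finset ℤ, (∀ k ∈ K, 0 < k) ∧
      (fun x => ∏ k ∈ K, Nk g N (i, k) x) =O[comap t atBot] N i) ∨
    (Tendsto (N i) (comap t atBot) (𝓝 0) ∧ ∀ m : ℕ, ∃ K : Finset ℤ, K.card = m ∧
      N i =O[comap t atBot] fun x => ∏ k ∈ K, Nk g N (i, k) x)
  hI : ∃ R : ℝ, ∀ (L : ℕ) (u v : Fin n × ℤ → ℕ),
    (∀ x, -L - R < t x → Pw g N (Win n L) u =Θ[𝓝 x] Pw g N (Win n L) v) →
      ∀ a ∈ Win n L, u a = v a

end Vale.Agent.P267C
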