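import Vale.Agent.P267C.SecB

/-! Comparable products. -/

open Set Filter Metric Asymptotics
open scoped Manifold ContDiff Topology

noncomputable section

namespace Vale.Agent.P267C

set_option linter.unusedSectionVars false

variable {E : Type} [NormedAddCommGroup E] [NormedSpace ℂ E] [FiniteDimensional ℂ E] {M : Type}
  [TopologicalSpace M] [ChartedSpace E M] [IsManifold 𝓘(ℂ, E) ω M] [T2Space M]
  [SecondCountableTopology M] [ConnectedSpace M]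

variable {n : ℕ} {t : M → ℝ} {g : Equiv.Perm M} {S : Fin n → M → ℝ} {W : Finset (Fin n × ℤ)}
  {u v : Fin n × ℤ → ℕ} {C C' : Set M} {x y p : M}

theorem CntA_ev {X F G : Type} [TopologicalSpace X] [Norm F] [Norm G] {f : X → F} {k : X → G} {x : X}
    (h : f =O[𝓝 x] k) : ∀ᶠ y in 𝓝 x, f =O[𝓝 y] k := by
  obtain ⟨c, hc⟩ := isBigO_iff_isBigOWith.1 h
  exact (isBigOWith_iff.1 hc).eventually_nhds.mono fun y hy => (isBigOWith_iff.2 hy).isBigO

theorem CntA_th {X F G : Type} [TopologicalSpace X] [Norm F] [Norm G] {f : X → F} {k : X → G} {x : X}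
    (h : f =Θ[𝓝 x] k) : ∀ᶠ y in 𝓝 x, f =Θ[𝓝 y] k := (CntA_ev h.1).and (CntA_ev h.2)

theorem CntA_pow {X : Type} {l : Filter X} {z : X → ℂ} (h0 : Tendsto z l (𝓝 0))
    (h1 : ∃ᶠ x in l, z x ≠ 0) {A B : ℕ} (h : (fun x => z x ^ A) =O[l] fun x => z x ^ B) : B ≤ A := by
  by_contra h2
  have h3 := h.trans_isLittleO ((isLittleO_pow_pow (not_le.1 h2)).comp_tendsto h0)
  obtain ⟨x, k1, k2⟩ := (h1.and_eventually (h3.bound one_half_pos)).exists
  have := norm_pos_iff.2 (pow_ne_zero A k1)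
  simp only [Function.comp_apply] at k2
  linarith

theorem Cv.cmp_sm (h : Cv E t g S) (hp : Sm E (Pr g S W) p) : ∃ μ : Fin n × ℤ → ℕ, ∀ u v,
    ∀ᶠ y in 𝓝 p, Pr g S W y = 0 → (Pw g S W u =Θ[𝓝 y] Pw g S W v ↔
      ∑ a ∈ W, u a * μ a = ∑ a ∈ W, v a * μ a) := by
  obtain ⟨c, ψ, hc, h1⟩ := hp
  have h2 : ∀ a ∈ W, ∃ μ : ℕ, Nk g S a =Θ[𝓝 p] fun y => (c y).2 ^ μ := fun a ha =>
    (h.secN a).mult (h.neN a) hc (h1.mono fun y hy h0 => hy.1 (Finset.prod_eq_zero ha h0))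
  choose! μ hμ using h2
  have h3 : ∀ u, Pw g S W u =Θ[𝓝 p] fun y => (c y).2 ^ ∑ a ∈ W, u a * μ a := fun u => by
    have k := IsTheta.finsetProd fun a ha => (hμ a ha).pow (u a)
    simp only [← pow_mul, Finset.prod_pow_eq_pow_sum, mul_comm (μ _)] at k
    exact k
  refine ⟨μ, fun u v => ?_⟩
  filter_upwards [CntA_th (h3 u), CntA_th (h3 v), h1.eventually_nhds,
    (contMDiffAt_iff_contMDiffAt_nhds (by simp)).1 hc.an] with y k1 k2 k3 k4 k5
  have k6 : Tendsto (fun x => (c x).2) (𝓝 y) (𝓝 0) :=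
    k3.self_of_nhds.1 k5 ▸ k4.continuousAt.snd.tendsto
  have k7 : ∃ᶠ x in 𝓝 y, (c x).2 ≠ 0 := fun k =>
    (h.secP W).ne (h.neP W) y ((k.and k3).mono fun x hx => hx.2.2 (not_not.1 hx.1))
  refine ⟨fun k => ?_, fun k => k1.trans (k ▸ k2.symm)⟩
  have k8 := (k1.symm.trans k).trans k2
  exact le_antisymm (CntA_pow k6 k7 k8.2) (CntA_pow k6 k7 k8.1)

theorem Cv.cmp_off (h : Cv E t g S) (hx : Pr g S W x ≠ 0) : Pw g S W u =Θ[𝓝 x] Pw g S W v := by
  have h1 : ∀ u, Pw g S W u =Θ[𝓝 x] fun _ => (1 : ℝ) := fun u => (h.secW W u).theta_one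
    (Finset.prod_ne_zero_iff.2 fun a ha => pow_ne_zero _ (Finset.prod_ne_zero_iff.1 hx a ha))
  exact (h1 u).trans (h1 v).symm

theorem Cv.cmp_all (h : Cv E t g S) {U : Set M} (hU : IsOpen U)
    (h1 : ∀ x ∈ U, Sm E (Pr g S W) x → Pw g S W u =Θ[𝓝 x] Pw g S W v) :
    ∀ x ∈ U, Pw g S W u =Θ[𝓝 x] Pw g S W v := by
  by_contra! h2
  have := FiniteDimensional.proper ℂ E
  have := ChartedSpace.locallyCompactSpace E M
  obtain ⟨x, hx, h3⟩ := iso_pt (S := {x ∈ U | ¬Pw g S W u =Θ[𝓝 x] Pw g S W v}) hU (sep_subset _ _)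
    (fun x hx k => (CntA_th (not_not.1 fun k' => k ⟨hx, k'⟩)).mono fun y hy k' => k'.2 hy)
    ((sing_countable h.dim (h.secP W) (h.neP W)).mono fun x hx =>
      And.intro (not_not.1 fun k => hx.2 (h.cmp_off k)) fun k => hx.2 (h1 x hx.1 k)) h2
  have h4 : ∀ᶠ y in 𝓝[≠] x, Pw g S W u =Θ[𝓝 y] Pw g S W v := by
    filter_upwards [h3, nhdsWithin_le_nhds (hU.mem_nhds hx.1)] with y k1 k2
    exact not_not.1 fun k => k1 ⟨k2, k⟩
  exact hx.2 ⟨(h.secW W u).hart h.dim (h.secW W v) (h4.mono fun _ k => k.1),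
    (h.secW W v).hart h.dim (h.secW W u) (h4.mono fun _ k => k.2)⟩

end Vale.Agent.P267C
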