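import Vale.Agent.P267C.CntA

/-! Rational curves and their translates. -/

open Set Filter Metric Asymptotics
open scoped Manifold ContDiff Topology

noncomputable section

namespace Vale.Agent.P267C

set_option linter.unusedSectionVars false

variable {E : Type} [NormedAddCommGroup E] [NormedSpace ℂ E] [FiniteDimensional ℂ E] {M : Type}
  [TopologicalSpace M] [ChartedSpace E M] [IsManifold 𝓘(ℂ, E) ω M] [T2Space M]
  [SecondCountableTopology M] [ConnectedSpace M]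

variable {n : ℕ} {t : M → ℝ} {g : Equiv.Perm M} {S : Fin n → M → ℝ} {W : Finset (Fin n × ℤ)}
  {u v : Fin n × ℤ → ℕ} {C C' : Set M} {x y p : M}

theorem cntb_cl {φ₀ φ₁ : ℂ → M} (h1 : Continuous φ₁) (he : ∀ z, z ≠ 0 → φ₁ z = φ₀ z⁻¹)
    {Z : Set ℂ} (hZ : Z.Countable) : φ₁ 0 ∈ closure (φ₀ '' Zᶜ) := by
  have hc : (insert 0 ((fun z : ℂ => z⁻¹) ⁻¹' Z)).Countable :=
    (hZ.preimage inv_injective).insert 0
  have := compl_neBot hc 0
  refine mem_closure_of_tendsto (b := 𝓝[(insert 0 ((fun z : ℂ => z⁻¹) ⁻¹' Z))ᶜ] 0)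
    ((h1.tendsto 0).mono_left nhdsWithin_le_nhds) ?_
  filter_upwards [self_mem_nhdsWithin] with z hz
  simp only [mem_compl_iff, mem_insert_iff, mem_preimage, not_or] at hz
  exact ⟨z⁻¹, hz.2, (he z hz.1).symm⟩

theorem cntb_cont {φ : ℂ → M} (h : ∀ z, Ho E φ z) : Continuous φ :=
  continuous_iff_continuousAt.2 fun z => (h z).continuousAt

theorem RatC.compact (h : RatC E C) : IsCompact C := by
  obtain ⟨φ₀, φ₁, h0, h1, he, -, rfl⟩ := h
  have e : range φ₀ ∪ range φ₁ = φ₀ '' closedBall 0 1 ∪ φ₁ '' closedBall 0 1 := by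
    refine Subset.antisymm ?_ (union_subset_union (image_subset_range _ _) (image_subset_range _ _))
    have hi : ∀ z : ℂ, z ∉ closedBall (0 : ℂ) 1 → z ≠ 0 ∧ z⁻¹ ∈ closedBall (0 : ℂ) 1 := by
      intro z hz
      rw [mem_closedBall_zero_iff, not_le] at hz
      refine ⟨fun h => ?_, ?_⟩
      · rw [h, norm_zero] at hz
        linarith
      · rw [mem_closedBall_zero_iff, norm_inv]
        exact inv_le_one_of_one_le₀ hz.le
    rintro x (⟨z, rfl⟩ | ⟨z, rfl⟩) <;> by_cases hz : z ∈ closedBall (0 : ℂ) 1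
    · exact Or.inl ⟨z, hz, rfl⟩
    · refine Or.inr ⟨z⁻¹, (hi z hz).2, ?_⟩
      rw [he _ (inv_ne_zero (hi z hz).1), inv_inv]
    · exact Or.inr ⟨z, hz, rfl⟩
    · exact Or.inl ⟨z⁻¹, (hi z hz).2, (he z (hi z hz).1).symm⟩
  rw [e]
  exact ((isCompact_closedBall _ _).image (cntb_cont h0)).union
    ((isCompact_closedBall _ _).image (cntb_cont h1))

theorem RatC.image (h : RatC E C) (hg : Cv E t g S) (k : ℤ) :
    RatC E ((g ^ k : Equiv.Perm M) '' C) := by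
  obtain ⟨φ₀, φ₁, h0, h1, he, hi, rfl⟩ := h
  refine ⟨(g ^ k : Equiv.Perm M) ∘ φ₀, (g ^ k : Equiv.Perm M) ∘ φ₁,
    fun z => (hg.gh k _).comp z (h0 z), fun z => (hg.gh k _).comp z (h1 z),
    fun z hz => congrArg _ (he z hz), (g ^ k).injective.comp hi, ?_⟩
  rw [image_union, range_comp, range_comp]

theorem RatC.conn (h : RatC E C) {Q : Set M} (hQ : Q.Countable) : IsPreconnected (C \ Q) := by
  obtain ⟨φ₀, φ₁, h0, h1, he, hi, rfl⟩ := h
  have hZ : (φ₀ ⁻¹' Q).Countable := hQ.preimage hi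
  refine ((compl_conn hZ).image φ₀ (cntb_cont h0).continuousOn).subset_closure ?_ ?_
  · rintro x ⟨z, hz, rfl⟩
    exact ⟨Or.inl ⟨z, rfl⟩, hz⟩
  · rintro x ⟨⟨z, rfl⟩ | ⟨z, rfl⟩, hx⟩
    · exact subset_closure ⟨z, hx, rfl⟩
    · by_cases hz : z = 0
      · rw [hz]
        exact cntb_cl (cntb_cont h1) he hZ
      · rw [he z hz] at hx ⊢
        exact subset_closure ⟨_, hx, rfl⟩

theorem RatC.inter (h : RatC E C) {N : M → ℝ} (hN : Sec E N) :
    (∀ x ∈ C, N x = 0) ∨ (C ∩ {x | N x = 0}).Countable := by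
  obtain ⟨φ₀, φ₁, h0, h1, he, hi, rfl⟩ := h
  rcases hN.ident isOpen_univ isPreconnected_univ (fun w _ => h0 w) with h2 | h2
  · left
    rintro x (⟨z, rfl⟩ | ⟨z, rfl⟩)
    · exact h2 z trivial
    · by_cases hz : z = 0
      · rw [hz]
        refine hN.closed.closure_subset_iff.2 ?_ (cntb_cl (cntb_cont h1) he countable_empty)
        rintro _ ⟨w, -, rfl⟩
        exact h2 w trivial
      · rw [he z hz]
        exact h2 _ trivial
  · right
    have hZ : {w | N (φ₀ w) = 0}.Countable :=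
      (iso_countable {w | N (φ₀ w) = 0}).mono fun w hw => And.intro hw (h2 w trivial)
    refine ((hZ.image φ₀).insert (φ₁ 0)).mono ?_
    rintro x ⟨⟨z, rfl⟩ | ⟨z, rfl⟩, hx⟩
    · exact Or.inr ⟨z, hx, rfl⟩
    · by_cases hz : z = 0
      · exact Or.inl (by rw [hz])
      · rw [he z hz] at hx ⊢
        exact Or.inr ⟨_, hx, rfl⟩

theorem Cv.cmp_rat (h : Cv E t g S) (hC : RatC E C) (h0 : ∀ x ∈ C, Pr g S W x = 0) (hx : x ∈ C)
    (hy : y ∈ C) (hx' : Sm E (Pr g S W) x) (hy' : Sm E (Pr g S W) y)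
    (h1 : Pw g S W u =Θ[𝓝 x] Pw g S W v) : Pw g S W u =Θ[𝓝 y] Pw g S W v := by
  have hQ := sing_countable h.dim (h.secP W) (h.neP W)
  refine (hC.conn hQ).induction₂'
    (fun a b => Pw g S W u =Θ[𝓝 a] Pw g S W v → Pw g S W u =Θ[𝓝 b] Pw g S W v) ?_
    (fun _ _ _ _ _ _ hab hbc ha => hbc (hab ha)) ⟨hx, fun hh => hh.2 hx'⟩ ⟨hy, fun hh => hh.2 hy'⟩ h1
  intro z hz
  have hs : Sm E (Pr g S W) z := by
    by_contra hn
    exact hz.2 ⟨h0 z hz.1, hn⟩
  obtain ⟨μ, hμ⟩ := h.cmp_sm hs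
  have h2 := (hμ u v).self_of_nhds (h0 z hz.1)
  filter_upwards [self_mem_nhdsWithin, nhdsWithin_le_nhds (hμ u v)] with w hw hw'
  have h3 := hw' (h0 w hw.1)
  exact ⟨fun ha => h3.2 (h2.1 ha), fun ha => h2.2 (h3.1 ha)⟩

theorem Cv.orb (h : Cv E t g S) (hp : Sm E (Pr g S W) p) (hC' : RatC E C')
    (h1 : ∀ᶠ y in 𝓝 p, Pr g S W y = 0 → y ∈ Sat g C') :
    ∃ k : ℤ, p ∈ (g ^ k : Equiv.Perm M) '' C' ∧
      ∀ x ∈ (g ^ k : Equiv.Perm M) '' C', Pr g S W x = 0 := by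
  by_contra hn
  have hk : ∀ k : ℤ, ∃ Q : Set M, Q.Countable ∧ ∀ᶠ y in 𝓝 p,
      y ∈ (g ^ k : Equiv.Perm M) '' C' → Pr g S W y = 0 → y ∈ Q := fun k => by
    rcases (hC'.image h k).inter (h.secP W) with h2 | h2
    · have h3 : p ∉ (g ^ k : Equiv.Perm M) '' C' := fun hh => hn ⟨k, hh, h2⟩
      refine ⟨∅, countable_empty, ?_⟩
      filter_upwards [(hC'.image h k).compact.isClosed.isOpen_compl.mem_nhds h3] with y hy hy'
      exact absurd hy' hy
    · exact ⟨_, h2, Eventually.of_forall fun y a b => ⟨a, b⟩⟩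
  choose Q hQ hev using hk
  obtain ⟨B, hB⟩ := (hC'.compact.image h.tc).isBounded.exists_norm_le
  obtain ⟨L, hL⟩ := exists_nat_ge (B + |t p| + 1)
  have h4 : ∀ᶠ y in 𝓝 p, ∀ k ∈ Finset.Icc (-(L : ℤ)) L,
      y ∈ (g ^ k : Equiv.Perm M) '' C' → Pr g S W y = 0 → y ∈ Q k :=
    (eventually_all_finset _).2 fun k _ => hev k
  have h5 : ∀ᶠ y in 𝓝 p, dist (t y) (t p) < 1 := (h.tc.tendsto p).eventually (ball_mem_nhds _ one_pos)
  obtain ⟨y, ⟨hy0, hyQ⟩, ⟨ha, hb⟩, hc⟩ :=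
    ((hp.unc (countable_iUnion hQ)).and_eventually ((h1.and h4).and h5)).exists
  obtain ⟨k, x, hx, rfl⟩ := mem_iUnion.1 (ha hy0)
  refine hyQ (mem_iUnion.2 ⟨k, hb k ?_ ⟨x, hx, rfl⟩ hy0⟩)
  rw [Real.dist_eq, h.tk, abs_lt] at hc
  have h6 := hB _ ⟨x, hx, rfl⟩
  rw [Real.norm_eq_abs, abs_le] at h6
  have h7 := le_abs_self (t p)
  have h8 := neg_abs_le (t p)
  rw [Finset.mem_Icc]
  constructor
  · have : ((-(L : ℤ) : ℤ) : ℝ) ≤ k := by
      push_cast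
      linarith
    exact_mod_cast this
  · have : (k : ℝ) ≤ ((L : ℤ) : ℝ) := by
      push_cast
      linarith
    exact_mod_cast this

end Vale.Agent.P267C
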