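import Mathlib

/-! One complex variable. -/

open Set Filter Metric Asymptotics
open scoped Manifold ContDiff Topology

noncomputable section

namespace Vale.Agent.P267C

theorem max_ratio {f g : ℂ → ℂ} {r C : ℝ} (hr : 0 < r) (hf : AnalyticOnNhd ℂ f (closedBall 0 r))
    (hg : AnalyticOnNhd ℂ g (closedBall 0 r)) (hO : ∀ s ∈ closedBall (0 : ℂ) r, f =O[𝓝 s] g)
    (hC : ∀ s ∈ sphere (0 : ℂ) r, ∀ᶠ z in 𝓝 s, ‖f z‖ ≤ C * ‖g z‖) (h0 : g 0 ≠ 0) :
    ‖f 0‖ ≤ C * ‖g 0‖ := by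
  have hm : MeromorphicOn (f / g) (closedBall 0 r) := hf.meromorphicOn.div hg.meromorphicOn
  obtain ⟨h, hh⟩ : ∃ h, h = toMeromorphicNFOn (f / g) (closedBall 0 r) := ⟨_, rfl⟩
  have h1 : ∀ s ∈ closedBall (0 : ℂ) r, h =ᶠ[𝓝[≠] s] f / g := fun s hs =>
    hh ▸ hm.toMeromorphicNFOn_eq_self_on_nhdsNE hs
  have m0 : (0 : ℂ) ∈ closedBall (0 : ℂ) r := mem_closedBall_self hr.le
  have h2 : ∀ s ∈ closedBall (0 : ℂ) r, ∀ c : ℝ, (∀ᶠ z in 𝓝 s, ‖f z‖ ≤ c * ‖g z‖) →
      ∀ᶠ z in 𝓝[≠] s, ‖h z‖ ≤ c := fun s hs c hc => by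
    have h3 := (hg s hs).eventually_eq_zero_or_eventually_ne_zero.resolve_left fun h4 =>
      h0 (hg.eqOn_zero_of_preconnected_of_eventuallyEq_zero (convex_closedBall 0 r).isPreconnected
        hs h4 m0)
    filter_upwards [h1 s hs, h3, hc.filter_mono nhdsWithin_le_nhds] with z a1 a2 a3
    rwa [a1, Pi.div_apply, norm_div, div_le_iff₀ (norm_pos_iff.2 a2)]
  have h3 : AnalyticOnNhd ℂ h (closedBall 0 r) := fun s hs => by
    have h4 : MeromorphicNFAt h s := hh ▸ meromorphicNFOn_toMeromorphicNFOn _ _ hs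
    refine h4.meromorphicOrderAt_nonneg_iff_analyticAt.1 (not_lt.1 fun ho => ?_)
    obtain ⟨c, hc⟩ := isBigO_iff.1 (hO s hs)
    obtain ⟨z, z1, z2⟩ := ((h2 s hs c hc).and ((tendsto_norm_atTop_iff_cobounded.2
      (tendsto_cobounded_of_meromorphicOrderAt_neg ho)).eventually_gt_atTop c)).exists
    exact absurd z1 (not_le.2 z2)
  have h4 : ‖h 0‖ ≤ C := by
    refine Complex.norm_le_of_forall_mem_frontier_norm_le isBounded_ball
      (DifferentiableOn.diffContOnCl (s := ball 0 r) ?_) (fun s hs => ?_)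
      (subset_closure (mem_ball_self hr))
    · exact h3.differentiableOn.mono closure_ball_subset_closedBall
    · rw [frontier_ball _ hr.ne'] at hs
      exact le_of_tendsto ((h3 s (sphere_subset_closedBall hs)).continuousAt.norm.tendsto.mono_left
        nhdsWithin_le_nhds) (h2 s (sphere_subset_closedBall hs) C (hC s hs))
  have h5 : h 0 = (f / g) 0 := tendsto_nhds_unique_of_eventuallyEq
    ((h3 0 m0).continuousAt.tendsto.mono_left nhdsWithin_le_nhds)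
    (((hf 0 m0).continuousAt.div (hg 0 m0).continuousAt h0).tendsto.mono_left nhdsWithin_le_nhds)
    (h1 0 m0)
  rwa [h5, Pi.div_apply, norm_div, div_le_iff₀ (norm_pos_iff.2 h0)] at h4

theorem one_upd {s a : ℂ} {F : ℂ → ℂ} (hF : ∀ᶠ w in 𝓝[≠] s, DifferentiableAt ℂ F w)
    (h0 : Tendsto F (𝓝[≠] s) (𝓝 a)) : AnalyticAt ℂ (Function.update F s a) s := by
  refine Complex.analyticAt_of_differentiable_on_punctured_nhds_of_continuousAt ?_
    (continuousAt_update_same.2 h0)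
  filter_upwards [hF, self_mem_nhdsWithin] with w h1 h2
  exact h1.congr_of_eventuallyEq ((eventually_ne_nhds h2).mono fun z hz =>
    Function.update_of_ne hz _ _)

theorem deep_card {ι : Type} {s : ℂ} {F : ℂ → ℂ} (hF : ∀ᶠ w in 𝓝[≠] s, DifferentiableAt ℂ F w)
    (h0 : Tendsto F (𝓝[≠] s) (𝓝 0)) (hne : ¬ ∀ᶠ w in 𝓝[≠] s, F w = 0) :
    ∃ d : ℕ, ∀ (K : Finset ι) (G : ι → ℂ → ℂ),
      (∀ b ∈ K, (∀ᶠ w in 𝓝[≠] s, DifferentiableAt ℂ (G b) w) ∧ Tendsto (G b) (𝓝[≠] s) (𝓝 0)) →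
      (F =O[𝓝[≠] s] fun w => ∏ b ∈ K, G b w) → K.card ≤ d := by
  have e := Function.update_eventuallyEq_nhdsNE F s s 0
  obtain ⟨d, u, u1, u2, u3⟩ := (one_upd hF h0).exists_eventuallyEq_pow_smul_nonzero_iff.2 fun h =>
    hne ((e.and (h.filter_mono nhdsWithin_le_nhds)).mono fun w hw => hw.1.symm.trans hw.2)
  refine ⟨d, fun K G hG hO => not_lt.1 fun hd => ?_⟩
  have h1 : (fun w => (w - s) ^ d) =O[𝓝[≠] s] F := by
    have h2 := (isBigO_refl F (𝓝[≠] s)).mul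
      (((u1.continuousAt.inv₀ u2).tendsto.mono_left nhdsWithin_le_nhds).isBigO_one ℂ)
    refine h2.congr' ?_ (.of_forall fun w => mul_one _)
    filter_upwards [e, u3.filter_mono nhdsWithin_le_nhds,
      (u1.continuousAt.eventually_ne u2).filter_mono nhdsWithin_le_nhds] with w a1 a2 a3
    rw [← a1, a2, smul_eq_mul, Pi.inv_apply, mul_inv_cancel_right₀ a3]
  have h2 : (fun w => ∏ b ∈ K, G b w) =O[𝓝[≠] s] fun w => ∏ _b ∈ K, (w - s) :=
    IsBigO.finsetProd fun b hb => by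
      refine ((one_upd (hG b hb).1 (hG b hb).2).differentiableAt.isBigO_sub.mono
        nhdsWithin_le_nhds).congr' ?_ EventuallyEq.rfl
      filter_upwards [Function.update_eventuallyEq_nhdsNE (G b) s s 0] with w a1
      rw [a1, Function.update_self, sub_zero]
  simp only [Finset.prod_const] at h2
  have h3 : Tendsto (fun w => w - s) (𝓝[≠] s) (𝓝 0) :=
    (tendsto_sub_nhds_zero_iff.2 tendsto_id).mono_left nhdsWithin_le_nhds
  exact ((isLittleO_pow_pow hd).comp_tendsto h3).not_isBigO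
    (Eventually.frequently (eventually_of_mem self_mem_nhdsWithin fun w hw =>
      pow_ne_zero _ (sub_ne_zero.2 hw))) ((h1.trans hO).trans h2)

theorem loc_dich {u : ℂ → ℂ} {z₀ : ℂ} (hu : AnalyticAt ℂ u z₀) :
    (∀ᶠ z in 𝓝 z₀, u z = u z₀) ∨ ∀ᶠ z in 𝓝[≠] z₀, u z ≠ u z₀ ∧ deriv u z ≠ 0 := by
  rcases hu.deriv.eventually_eq_zero_or_eventually_ne_zero with h | h
  · obtain ⟨r, r0, hr⟩ := eventually_nhds_iff_ball.1 (h.and hu.eventually_analyticAt)
    exact .inl (eventually_of_mem (ball_mem_nhds z₀ r0) fun z hz =>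
      isOpen_ball.is_const_of_deriv_eq_zero (convex_ball z₀ r).isPreconnected
        (fun w hw => (hr w hw).2.differentiableAt.differentiableWithinAt) (fun w hw => (hr w hw).1)
        hz (mem_ball_self r0))
  · exact (hu.eventually_eq_or_eventually_ne analyticAt_const).imp id fun h' => h'.and h

theorem loc_inv {u : ℂ → ℂ} {z₀ : ℂ} (hu : AnalyticAt ℂ u z₀) (h : deriv u z₀ ≠ 0) :
    ∃ σ : ℂ → ℂ, AnalyticAt ℂ σ (u z₀) ∧ σ (u z₀) = z₀ ∧ (∀ᶠ w in 𝓝 (u z₀), u (σ w) = w) ∧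
      ∀ᶠ z in 𝓝 z₀, σ (u z) = z := by
  have hc : ContDiffAt ℂ ω u z₀ := hu.contDiffAt
  have hd := hu.differentiableAt.hasDerivAt.hasFDerivAt_equiv h
  exact ⟨hc.localInverse hd (by simp), (hc.to_localInverse hd (by simp)).analyticAt,
    hc.localInverse_apply_image hd (by simp),
    (hc.hasStrictFDerivAt' hd (by simp)).eventually_right_inverse,
    (hc.hasStrictFDerivAt' hd (by simp)).eventually_left_inverse⟩

end Vale.Agent.P267C
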