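import Vale.Agent.P267C.SecA
import Vale.Agent.P267C.One

/-! No disc escapes to the negative end. -/

open Set Filter Metric Asymptotics
open scoped Manifold ContDiff Topology

noncomputable section

namespace Vale.Agent.P267C

set_option linter.unusedSectionVars false

variable {E : Type} [NormedAddCommGroup E] [NormedSpace ℂ E] [FiniteDimensional ℂ E] {M : Type}
  [TopologicalSpace M] [ChartedSpace E M] [IsManifold 𝓘(ℂ, E) ω M] [T2Space M]
  [SecondCountableTopology M] [ConnectedSpace M]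

variable {n : ℕ} {t : M → ℝ} {g : Equiv.Perm M} {S : Fin n → M → ℝ} {W : Finset (Fin n × ℤ)}
  {u v : Fin n × ℤ → ℕ} {C C' : Set M} {x y p : M}

theorem Cv.shiftA (h : Cv E t g S) (j : ℤ) :
    Tendsto (g ^ j : Equiv.Perm M) (comap t atBot) (comap t atBot) :=
  tendsto_comap_iff.2 ((tendsto_atBot_add_const_right _ (j : ℝ) tendsto_comap).congr
    fun x => (h.tk j x).symm)

theorem Nk_add (g : Equiv.Perm M) (S : Fin n → M → ℝ) (i : Fin n) (k j : ℤ) (x : M) :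
    Nk g S (i, k) ((g ^ j) x) = Nk g S (i, k + j) x := by
  simp only [Nk, zpow_add, Equiv.Perm.mul_apply]

/-- A product of norms that vanishes near the puncture has a factor that vanishes identically. -/
theorem Cv.factor (h : Cv E t g S) {Ω : Set ℂ} {Φ : ℂ → M} {s : ℂ} (hΩ : IsOpen Ω)
    (hc : IsPreconnected Ω) (hΦ : ∀ w ∈ Ω, Ho E Φ w) (hs : ∀ᶠ w in 𝓝[≠] s, w ∈ Ω)
    (h0 : ∀ᶠ w in 𝓝[≠] s, Pr g S W (Φ w) = 0) : ∃ a ∈ W, ∀ w ∈ Ω, Nk g S a (Φ w) = 0 := by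
  by_contra h1
  have h2 : ∀ a ∈ W, ∀ w ∈ Ω, ∀ᶠ z in 𝓝[≠] w, Nk g S a (Φ z) ≠ 0 := fun a ha =>
    ((h.secN a).ident hΩ hc hΦ).resolve_left fun h3 => h1 ⟨a, ha, h3⟩
  obtain ⟨w, h3, h4⟩ := (hs.and (eventually_nhdsNE_eventually_nhds_iff.2 h0)).exists
  obtain ⟨z, h5, h6⟩ := (((eventually_all_finset W).2 fun a ha => h2 a ha w h3).and
    (h4.filter_mono nhdsWithin_le_nhds)).exists
  exact Finset.prod_ne_zero_iff.2 h5 h6

theorem Cv.noDeep (h : Cv E t g S) (W : Finset (Fin n × ℤ)) (p : M) :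
    NoDeep E t {x | Pr g S W x = 0} p := by
  classical
  intro Ω Φ s hΩ hc hΦ hs ht hp
  have hl : Tendsto Φ (𝓝[≠] s) (comap t atBot) := tendsto_comap_iff.2 ht
  have h0 : ∀ᶠ w in 𝓝[≠] s, Pr g S W (Φ w) = 0 := hs.mono fun w hw => (hΦ w hw).2
  have fa := fun W' => h.factor (W := W') hΩ hc (fun w hw => (hΦ w hw).1) hs
  obtain ⟨T, hT⟩ := h.topN
  obtain ⟨j, ⟨i, hz⟩, hm⟩ := Int.exists_greatest_of_bdd
    (P := fun j => ∃ i, ∀ w ∈ Ω, Nk g S (i, j) (Φ w) = 0)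
    ⟨⌈T - t p⌉, fun j ⟨i, hj⟩ => by
      have h1 := hT (i, j) p (closure_minimal (t := {x | Nk g S (i, j) x = 0})
        (image_subset_iff.2 fun w hw => hj w hw) (h.secN (i, j)).closed hp)
      exact Int.cast_le.1 ((le_sub_iff_add_le'.2 h1.le).trans (Int.le_ceil _))⟩
    (by
      obtain ⟨a, -, ha⟩ := fa W h0
      exact ⟨a.2, a.1, ha⟩)
  rcases h.hC i with ⟨K, k0, hK⟩ | ⟨h1, h2⟩
  · obtain ⟨a, ha, h3⟩ := fa (K.image fun k => (i, k + j)) (by
      filter_upwards [(hK.comp_tendsto ((h.shiftA j).comp hl)).eq_zero_imp, hs] with w h4 h5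
      obtain ⟨k, h6, h7⟩ := Finset.prod_eq_zero_iff.1 (h4 (hz w h5))
      exact Finset.prod_eq_zero (Finset.mem_image_of_mem _ h6) ((Nk_add g S i k j _).symm.trans h7))
    obtain ⟨k, hk, rfl⟩ := Finset.mem_image.1 ha
    have := hm _ ⟨i, h3⟩
    have := k0 k hk
    omega
  choose F F1 F2 using h.hD W
  have hl' : Tendsto Φ (𝓝[≠] s) (comap t atBot ⊓ 𝓟 {x | Pr g S W x = 0}) :=
    tendsto_inf.2 ⟨hl, tendsto_principal.2 h0⟩
  have d1 : ∀ k, ∀ᶠ w in 𝓝[≠] s, DifferentiableAt ℂ (fun w => F (i, k) (Φ w)) w := fun k => by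
    filter_upwards [hl.eventually (F1 (i, k)), hs] with w h3 h4
    exact (h3 (hΦ w h4).2).comp_ho (hΦ w h4).1
  have d2 : ∀ k, Tendsto (fun w => F (i, k) (Φ w)) (𝓝[≠] s) (𝓝 0) := fun k =>
    ((F2 (i, k)).1.comp_tendsto hl').trans_tendsto (h1.comp ((h.shiftA k).comp hl))
  obtain ⟨d, hd⟩ := deep_card (ι := ℤ) (d1 (j + 1)) (d2 (j + 1)) fun h3 => by
    obtain ⟨a, ha, h4⟩ := fa {(i, j + 1)} (by
      filter_upwards [((F2 (i, j + 1)).2.comp_tendsto hl').eq_zero_imp, h3] with w h5 h6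
      exact (Finset.prod_singleton _ _).trans (h5 h6))
    rw [Finset.mem_singleton.1 ha] at h4
    have := hm _ ⟨i, h4⟩
    omega
  obtain ⟨K, k1, k2⟩ := h2 (d + 1)
  have h3 := hd K (fun k w => F (i, k + (j + 1)) (Φ w)) (fun k _ => ⟨d1 _, d2 _⟩)
    ((((F2 (i, j + 1)).1.comp_tendsto hl').trans
      (k2.comp_tendsto ((h.shiftA (j + 1)).comp hl))).trans
      ((IsBigO.finsetProd fun k _ => (F2 (i, k + (j + 1))).2.comp_tendsto hl').congr_left
        fun w => Finset.prod_congr rfl fun k _ => (Nk_add g S i k (j + 1) _).symm))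
  omega

end Vale.Agent.P267C
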