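import Vale.Agent.P267C.Prop

/-! Degree one. -/

open Set Filter Metric Asymptotics
open scoped Manifold ContDiff Topology

noncomputable section

namespace Vale.Agent.P267C

set_option linter.unusedSectionVars false

variable {E : Type} [NormedAddCommGroup E] [NormedSpace ℂ E] [FiniteDimensional ℂ E] {M : Type}
  [TopologicalSpace M] [ChartedSpace E M] [IsManifold 𝓘(ℂ, E) ω M] [T2Space M]
  [SecondCountableTopology M] [ConnectedSpace M]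

variable {t N : M → ℝ} {c : M → ℂ × ℂ} {ψ : ℂ × ℂ → M} {p : M} {f : M → ℂ} {κ : ℂ}

theorem Deg_loc (h : Cu E t N c ψ p f κ) {y : M} {w : ℂ}
    (hy : N y = 0 ∧ y ≠ p ∧ f y = w ∧ Good E {x | N x = 0} f y) : ∃ σ : ℂ → M, Ho E σ w ∧
      Tendsto σ (𝓝 w) (𝓝 y) ∧ (∀ᶠ z in 𝓝 w, N (σ z) = 0 ∧ σ z ≠ p ∧ f (σ z) = z ∧
        Good E {x | N x = 0} f (σ z)) ∧ ∀ᶠ x in 𝓝 y, N x = 0 → σ (f x) = x := by
  obtain ⟨h1, h2, rfl, h3⟩ := hy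
  have h4 := h3.ev (h.pole.cd y h1 h2).continuousAt
  obtain ⟨σ, s1, s2, s3, s4⟩ := h3
  have s5 : Tendsto σ (𝓝 (f y)) (𝓝 y) := by
    have := s1.continuousAt.tendsto
    rwa [s2] at this
  refine ⟨σ, s1, s5, ?_, s4⟩
  filter_upwards [s3, s5.eventually h4, s5.eventually_ne h2] with z a b d
  exact ⟨a.1, d, a.2, b a.1⟩

theorem Deg_big (h : Cu E t N c ψ p f κ) : ∃ σ : ℂ → M, Ho E σ 0 ∧ σ 0 = p ∧
    (∀ᶠ w in 𝓝[≠] (0 : ℂ), w⁻¹ ∉ Sv E {x | N x = 0} f p κ ∧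
      (N (σ w) = 0 ∧ σ w ≠ p ∧ f (σ w) = w⁻¹ ∧ Good E {x | N x = 0} f (σ w)) ∧
      ∀ x, N x = 0 ∧ x ≠ p ∧ f x = w⁻¹ ∧ Good E {x | N x = 0} f x → x = σ w) ∧
    ∀ᶠ y in 𝓝[≠] p, N y = 0 → f y ∉ Sv E {x | N x = 0} f p κ ∧ Good E {x | N x = 0} f y := by
  obtain ⟨σ, a1, a2, a3, a4, a5⟩ := loc_pole h.crd h.sm h.pole
  obtain ⟨R, hR⟩ := h.bdd (eventually_nhdsWithin_iff.1 a4)
  have b1 : ∀ y, N y = 0 → y ≠ p → max R ‖κ‖ < ‖f y‖ →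
      Good E {x | N x = 0} f y ∧ f y ≠ 0 ∧ σ (f y)⁻¹ = y := fun y h1 h2 h3 => by
    by_contra h4
    exact (hR y h1 fun h5 => h4 (h5 h2 h1)).not_gt ((le_max_left _ _).trans_lt h3)
  have b2 : ∀ z : ℂ, max R ‖κ‖ < ‖z‖ → z ∉ Sv E {x | N x = 0} f p κ := by
    rintro z hz (rfl | ⟨y, hy, rfl⟩)
    · exact (le_max_right _ _).not_gt hz
    · exact hy.2.2.1 (b1 y hy.1 hy.2.1 hz).1
  refine ⟨σ, a1, a2, ?_, ?_⟩
  · filter_upwards [a3, tendsto_norm_inv_nhdsNE_zero_atTop.eventually_gt_atTop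
      (max R ‖κ‖)] with w h1 h2
    refine ⟨b2 _ h2, ⟨h1.1, h1.2.1, h1.2.2, (b1 _ h1.1 h1.2.1 (by rwa [h1.2.2])).1⟩, fun x hx => ?_⟩
    have h3 := (b1 x hx.1 hx.2.1 (by rwa [hx.2.2.1])).2.2
    rw [hx.2.2.1, inv_inv] at h3
    exact h3.symm
  · filter_upwards [a4, a5 (max R ‖κ‖)] with y h1 h2 h3
    exact ⟨b2 _ (h2 h3), (h1 h3).1⟩

theorem Cu.deg (h : Cu E t N c ψ p f κ) {w : ℂ} (hw : w ∉ Sv E {x | N x = 0} f p κ) :
    ∃! y, N y = 0 ∧ y ≠ p ∧ f y = w ∧ Good E {x | N x = 0} f y := by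
  obtain ⟨Q, hQ⟩ : ∃ Q : M → ℂ → Prop, ∀ y z, Q y z ↔
      N y = 0 ∧ y ≠ p ∧ f y = z ∧ Good E {x | N x = 0} f y := ⟨_, fun _ _ => Iff.rfl⟩
  have loc : ∀ w ∉ Sv E {x | N x = 0} f p κ, ∀ᶠ z in 𝓝 w, (∃! y, Q y w) ↔ ∃! y, Q y z := by
    intro w hw
    choose! σ s1 s2 s3 s4 using fun y (hy : Q y w) => Deg_loc h ((hQ y w).1 hy)
    simp only [← hQ] at s3
    have ha : ∀ᶠ z in 𝓝 w, ∀ x, Q x z → ∃ y, Q y w ∧ σ y z = x := by
      refine (h.near (R := fun x z => Good E {x | N x = 0} f x → ∃ y, Q y w ∧ σ y z = x)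
        (fun e => hw (Or.inl e)) fun y h1 h2 h3 => ?_).mono fun z hz x hx =>
          have h4 := (hQ x z).1 hx
          hz x h4.1 h4.2.1 h4.2.2.1 h4.2.2.2
      by_cases h4 : Good E {x | N x = 0} f y
      · have h5 := (hQ y w).2 ⟨h1, h2, h3, h4⟩
        filter_upwards [continuousAt_fst.eventually (s4 y h5)] with q a b d _
        exact ⟨y, h5, d ▸ a b⟩
      · have h5 : Flat {x | N x = 0} f y := by
          by_contra h5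
          exact hw (Or.inr ⟨y, ⟨h1, h2, h4, h5⟩, h3⟩)
        filter_upwards [continuousAt_fst.eventually h5.ev] with q a b _ d
        exact (d.not_flat (a b)).elim
    by_cases h1 : ∃! y, Q y w
    · obtain ⟨y, h2, h3⟩ := id h1
      filter_upwards [ha, s3 y h2] with z a b
      refine iff_of_true h1 ⟨_, b, fun x hx => ?_⟩
      obtain ⟨y', h4, rfl⟩ := a x hx
      rw [h3 y' h4]
    by_cases h2 : ∃ y, Q y w
    · obtain ⟨y, h3⟩ := h2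
      obtain ⟨y', h4, h5⟩ : ∃ y', Q y' w ∧ y' ≠ y := by
        by_contra h4
        exact h1 ⟨y, h3, fun y' h5 => not_not.1 fun h6 => h4 ⟨y', h5, h6⟩⟩
      filter_upwards [s3 y h3, s3 y' h4, ((s2 y' h4).prodMk_nhds (s2 y h3)).eventually
        (isClosed_diagonal.isOpen_compl.mem_nhds h5)] with z a b d
      exact iff_of_false h1 fun h6 => d (h6.unique b a)
    · filter_upwards [ha] with z a
      refine iff_of_false h1 fun ⟨x, hx, _⟩ => ?_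
      obtain ⟨y, hy, -⟩ := a x hx
      exact h2 ⟨y, hy⟩
  obtain ⟨σ, -, -, a3, -⟩ := Deg_big h
  obtain ⟨u, h1, h2, h3⟩ := a3.exists
  simp only [← hQ] at h2 h3 ⊢
  exact ((compl_conn h.sv_countable).induction₂' (fun a b => (∃! y, Q y a) ↔ ∃! y, Q y b)
    (fun a ha => ((loc a ha).filter_mono nhdsWithin_le_nhds).mono fun _ e => ⟨e, e.symm⟩)
    (fun _ _ _ _ _ _ => Iff.trans) h1 hw).1 ⟨_, h2, h3⟩

theorem Cu.inv (h : Cu E t N c ψ p f κ) : ∃ φ σ : ℂ → M,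
    (∀ w ∉ Sv E {x | N x = 0} f p κ, Ho E φ w ∧ N (φ w) = 0 ∧ φ w ≠ p ∧ f (φ w) = w) ∧
    Ho E σ 0 ∧ σ 0 = p ∧ (∀ᶠ w in 𝓝[≠] (0 : ℂ), w⁻¹ ∉ Sv E {x | N x = 0} f p κ ∧ σ w = φ w⁻¹) ∧
    ∀ᶠ y in 𝓝[≠] p, N y = 0 → f y ∉ Sv E {x | N x = 0} f p κ ∧ φ (f y) = y := by
  choose! φ hφ using fun w hw => (h.deg (w := w) hw).exists
  obtain ⟨σ, a1, a2, a3, a4⟩ := Deg_big h
  refine ⟨φ, σ, fun w hw => ⟨?_, (hφ w hw).1, (hφ w hw).2.1, (hφ w hw).2.2.1⟩, a1, a2,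
    a3.mono fun w hw => ⟨hw.1, (hw.2.2 _ (hφ _ hw.1)).symm⟩, ?_⟩
  · obtain ⟨τ, s1, -, s3, -⟩ := Deg_loc h (hφ w hw)
    refine s1.congr_of_eventuallyEq ?_
    filter_upwards [s3, h.sv_closed.isOpen_compl.mem_nhds hw] with z a b
    exact (h.deg b).unique (hφ z b) a
  · filter_upwards [a4, self_mem_nhdsWithin] with y a b d
    exact ⟨(a d).1, (h.deg (a d).1).unique (hφ _ (a d).1) ⟨d, b, rfl, (a d).2⟩⟩

end Vale.Agent.P267C
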