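import Vale.Agent.P267C.Prop

/-! Extension over the exceptional values. -/

open Set Filter Metric Asymptotics
open scoped Manifold ContDiff Topology

noncomputable section

namespace Vale.Agent.P267C

set_option linter.unusedSectionVars false

variable {E : Type} [NormedAddCommGroup E] [NormedSpace ℂ E] [FiniteDimensional ℂ E] {M : Type}
  [TopologicalSpace M] [ChartedSpace E M] [IsManifold 𝓘(ℂ, E) ω M] [T2Space M]
  [SecondCountableTopology M] [ConnectedSpace M]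

variable {t N : M → ℝ} {c : M → ℂ × ℂ} {ψ : ℂ × ℂ → M} {p : M} {f : M → ℂ} {κ : ℂ}

theorem Cu.ext_lim (h : Cu E t N c ψ p f κ) {Φ : ℂ → M} {s : ℂ} {l : Filter ℂ} (hl : l ≤ 𝓝 s)
    (hΦ : ∀ᶠ w in l, N (Φ w) = 0 ∧ Φ w ≠ p ∧ f (Φ w) = w) {y : M} (hy : MapClusterPt y l Φ) :
    N y = 0 ∧ y ≠ p ∧ f y = s := by
  have h1 : N y = 0 := h.sec.closed.mem_of_mapClusterPt hy (hΦ.mono fun w hw => hw.1)
  have h2 : y ≠ p := by
    rintro rfl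
    obtain ⟨σ, -, -, -, -, hR⟩ := loc_pole h.crd (D := {x | N x = 0}) h.sm h.pole
    have h3 := hy.frequently (eventually_nhdsWithin_iff.1 (hR (‖s‖ + 1)))
    have h4 : ∀ᶠ w in l, ‖w‖ < ‖s‖ + 1 :=
      hl (continuous_norm.continuousAt.eventually_lt continuousAt_const (lt_add_one ‖s‖))
    obtain ⟨w, hw, hw1, hw2⟩ := (h3.and_eventually (hΦ.and h4)).exists
    have h5 := hw hw1.2.1 hw1.1
    rw [hw1.2.2] at h5
    exact lt_asymm h5 hw2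
  refine ⟨h1, h2, ?_⟩
  have h3 := hy.continuousAt_comp (h.pole.cd y h1 h2).continuousAt
  have h4 : Tendsto (f ∘ Φ) l (𝓝 s) :=
    (tendsto_id'.2 hl).congr' (hΦ.mono fun w hw => hw.2.2.symm)
  exact eq_of_nhds_neBot (h3.clusterPt.mono h4)

/-- A section over a punctured disc converges or goes to the negative end. -/
theorem Cu.punct (h : Cu E t N c ψ p f κ) {Φ : ℂ → M} {s : ℂ}
    (hΦ : ∀ᶠ w in 𝓝[≠] s, Ho E Φ w ∧ N (Φ w) = 0 ∧ Φ w ≠ p ∧ f (Φ w) = w) :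
    (∃ x, Tendsto Φ (𝓝[≠] s) (𝓝 x)) ∨ Tendsto (fun w => t (Φ w)) (𝓝[≠] s) atBot := by
  have := lcs E M
  by_cases hx : ∃ x, MapClusterPt x (𝓝[≠] s) Φ
  · obtain ⟨x, hx⟩ := hx
    refine Or.inl ⟨x, cluster (h.cnt.union (iso_countable {x | N x = 0 ∧ f x = s}))
      (hΦ.mono fun w hw => hw.1.continuousAt) (fun y hy => ?_) hx⟩
    obtain ⟨h1, h2, h3⟩ := h.ext_lim nhdsWithin_le_nhds (hΦ.mono fun w hw => hw.2) hy
    by_cases hs : Sm E N y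
    · rcases h.dich hs h2 with hF | hG
      · obtain ⟨w, hw, hw1, hw2⟩ :=
          ((hy.frequently hF).and_eventually (hΦ.and self_mem_nhdsWithin)).exists
        exact absurd (hw1.2.2.2.symm.trans ((hw hw1.2.1).trans h3)) hw2
      · exact Or.inr ⟨⟨h1, h3⟩, hG.mono fun z hz hz' => (hz hz'.1).2 (hz'.2.trans h3.symm)⟩
    · exact Or.inl ⟨h1, hs⟩
  · obtain ⟨T, hT⟩ := h.top
    exact Or.inr (no_cluster h.tp (hΦ.mono fun w hw => hT _ hw.2.1) (not_exists.1 hx))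

theorem Cu.ext (h : Cu E t N c ψ p f κ) (hd : NoDeep E t {x | N x = 0} p) {S : Set ℂ}
    (hS : S.Countable) (hc : IsClosed S) {φ : ℂ → M}
    (hφ : ∀ w ∉ S, Ho E φ w ∧ N (φ w) = 0 ∧ φ w ≠ p ∧ f (φ w) = w) (hp : p ∈ closure (φ '' Sᶜ)) :
    ∃ Φ : ℂ → M, (∀ w, Ho E Φ w ∧ N (Φ w) = 0 ∧ Φ w ≠ p ∧ f (Φ w) = w) ∧ ∀ w ∉ S, Φ w = φ w := by
  classical
  have : Nonempty M := ⟨p⟩
  obtain ⟨Φ, e1, e2⟩ : ∃ Φ : ℂ → M, (∀ w ∉ S, Φ w = φ w) ∧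
      ∀ w ∈ S, Φ w = limUnder (𝓝[Sᶜ] w) φ :=
    ⟨fun w => if w ∈ S then limUnder (𝓝[Sᶜ] w) φ else φ w, fun w hw => if_neg hw,
      fun w hw => if_pos hw⟩
  have e3 : ∀ w, Φ =ᶠ[𝓝[Sᶜ] w] φ := fun w => eventually_nhdsWithin_of_forall e1
  have h1 : ∀ w ∉ S, Ho E Φ w := fun w hw =>
    (hφ w hw).1.congr_of_eventuallyEq
      (Filter.mem_of_superset (hc.isOpen_compl.mem_nhds hw) fun z hz => e1 z hz)
  have h2 : ∀ w, Ho E Φ w → N (Φ w) = 0 ∧ Φ w ≠ p ∧ f (Φ w) = w := by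
    intro w hw
    have := compl_neBot hS w
    have h3 : Tendsto φ (𝓝[Sᶜ] w) (𝓝 (Φ w)) :=
      (hw.continuousAt.tendsto.mono_left nhdsWithin_le_nhds).congr' (e3 w)
    exact h.ext_lim nhdsWithin_le_nhds
      (eventually_nhdsWithin_of_forall fun z hz => (hφ z hz).2) h3.mapClusterPt
  have hBS : {w | ¬ Ho E Φ w} ⊆ S := fun w hw => by_contra fun h' => hw (h1 w h')
  have hBc : {w | ¬ Ho E Φ w}.Countable := hS.mono hBS
  have hBo : ∀ w, w ∉ {w | ¬ Ho E Φ w} → ∀ᶠ z in 𝓝 w, z ∉ {w | ¬ Ho E Φ w} := fun w hw =>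
    (Ho.ev (not_not.1 hw)).mono fun z hz => not_not.2 hz
  have h3 : ∀ w, Ho E Φ w := by
    by_contra hne
    obtain ⟨s, hs, hiso⟩ := iso_pt isOpen_univ (subset_univ _) (fun w _ => hBo w) hBc
      (not_forall.1 hne)
    have h4 : ∀ᶠ w in 𝓝[≠] s, Ho E Φ w := hiso.mono fun w hw => not_not.1 hw
    rcases h.punct (h4.mono fun w hw => ⟨hw, h2 w hw⟩) with ⟨x, hx⟩ | hx
    · have := compl_neBot hS s
      have h5 : 𝓝[Sᶜ] s ≤ 𝓝[≠] s :=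
        nhdsWithin_mono _ (compl_subset_compl.2 (singleton_subset_iff.2 (hBS hs)))
      have h6 : Φ s = x := (e2 s (hBS hs)).trans ((hx.mono_left h5).congr' (e3 s)).limUnder_eq
      exact hs (ho_of_tendsto h4 (h6 ▸ hx))
    · refine hd {w | ¬ Ho E Φ w}ᶜ Φ s (isOpen_iff_mem_nhds.2 hBo) (compl_conn hBc)
        (fun w hw => ⟨not_not.1 hw, (h2 w (not_not.1 hw)).1⟩) hiso hx (closure_mono ?_ hp)
      rintro _ ⟨w, hw, rfl⟩
      exact ⟨w, fun hB => hw (hBS hB), e1 w hw⟩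
  exact ⟨Φ, fun w => ⟨h3 w, h2 w (h3 w)⟩, e1⟩

end Vale.Agent.P267C
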