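import Vale.Agent.P267C.Main
import Vale.Agent.P267.Stmt

/-! Rational curves on the quotient. -/

open Set Filter Metric Asymptotics
open scoped Manifold ContDiff Topology

noncomputable section

namespace Vale.Agent.P267C

open Vale.Agent.P267

theorem toEquiv_zpow {M : Type} [TopologicalSpace M] (g : M ≃ₜ M) (k : ℤ) (x : M) :
    (g.toEquiv ^ k : Equiv.Perm M) x = (g ^ k) x := by
  let F : (M ≃ₜ M) →* Equiv.Perm M :=
    { toFun := fun f => f.toEquiv, map_one' := rfl, map_mul' := fun _ _ => rfl }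
  have h : (g.toEquiv ^ k : Equiv.Perm M) = F (g ^ k) := (map_zpow F g k).symm
  rw [h]
  rfl

variable {X M : Type} [TopologicalSpace X] [ChartedSpace C2 X] [TopologicalSpace M]
  [ChartedSpace C2 M] {π : M → X} {g : M ≃ₜ M} {t : M → ℝ}

theorem RatC.down (h : IsCover π g t) {C : Set M} (hC : RatC C2 C) : IsRationalCurve (π '' C) := by
  obtain ⟨φ₀, φ₁, h0, h1, h2, h3, rfl⟩ := hC
  have hπ := h.loc.contMDiff
  have c0 : Continuous φ₀ := continuous_iff_continuousAt.2 fun z => (h0 z).continuousAt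
  have hl : Tendsto (fun z => π (φ₀ z)) (coclosedCompact ℂ) (𝓝 (π (φ₁ 0))) := by
    rw [coclosedCompact_eq_cocompact, ← Metric.cobounded_eq_cocompact]
    have a1 : Tendsto (fun z : ℂ => π (φ₁ z⁻¹)) (Bornology.cobounded ℂ) (𝓝 (π (φ₁ 0))) :=
      (hπ.continuous.tendsto _).comp ((h1 0).continuousAt.tendsto.comp tendsto_inv₀_cobounded)
    refine a1.congr' ?_
    filter_upwards [Bornology.eventually_ne_cobounded (0 : ℂ)] with z hz
    rw [h2 _ (inv_ne_zero hz), inv_inv]
  refine ⟨OnePoint.continuousMapMk ⟨fun z => π (φ₀ z), hπ.continuous.comp c0⟩ _ hl, ?_, ?_, ?_⟩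
  · intro z
    exact ((hπ _).comp z (h0 z)).mdifferentiableAt (by simp)
  · by_contra hc
    push Not at hc
    have a1 : ∀ z : ℂ, ∃ k : ℤ, (g ^ k) (φ₀ 0) = φ₀ z := fun z =>
      (h.fib _ _).1 (hc ((0 : ℂ) : OnePoint ℂ) (z : OnePoint ℂ))
    choose k hk using a1
    have a2 : Function.Injective k := fun z w hzw => h3 (by rw [← hk z, ← hk w, hzw])
    exact not_countable (α := ℝ) (a2.comp Complex.ofReal_injective).countable
  · ext x
    constructor
    · rintro ⟨y, ⟨z, rfl⟩ | ⟨z, rfl⟩, rfl⟩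
      · exact ⟨(z : OnePoint ℂ), rfl⟩
      · by_cases hz : z = 0
        · subst hz
          exact ⟨OnePoint.infty, rfl⟩
        · exact ⟨((z⁻¹ : ℂ) : OnePoint ℂ), by rw [h2 z hz]; rfl⟩
    · rintro ⟨z, rfl⟩
      induction z using OnePoint.rec with
      | infty => exact ⟨_, Or.inr ⟨0, rfl⟩, rfl⟩
      | coe z => exact ⟨_, Or.inl ⟨z, rfl⟩, rfl⟩

theorem sat_eq (h : IsCover π g t) (C : Set M) : Sat g.toEquiv C = π ⁻¹' (π '' C) := by
  ext x
  simp only [Sat, mem_iUnion, mem_image, mem_preimage, toEquiv_zpow, h.fib]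
  exact ⟨fun ⟨k, y, hy, e⟩ => ⟨y, hy, k, e⟩, fun ⟨y, hy, k, e⟩ => ⟨k, y, hy, e⟩⟩

/-- The curve part: enough rational curves on the quotient. -/
theorem curves_down [IsManifold 𝓘(ℂ, C2) ω M] [T2Space M] [SecondCountableTopology M]
    [ConnectedSpace M] (h : IsCover π g t) {n : ℕ} {N : Fin n → M → ℝ}
    (hN : Cv C2 t g.toEquiv N) :
    ∃ C : Fin n → Set X, Function.Injective C ∧ ∀ i, IsRationalCurve (C i) := by
  obtain ⟨A, h1, h2⟩ := hN.curves
  refine ⟨fun i => π '' A i, fun i j hij => h2 i j ?_, fun i => (h1 i).down h⟩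
  have e : π '' A i = π '' A j := hij
  rw [sat_eq h, sat_eq h, e]

end Vale.Agent.P267C
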