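import Vale.Agent.P267C.One

/-! Comparability extends over a point of the plane. -/

open Set Filter Metric Asymptotics
open scoped Manifold ContDiff Topology

noncomputable section

namespace Vale.Agent.P267C

theorem hart {f g : ℂ × ℂ → ℂ} {x : ℂ × ℂ} (hf : AnalyticAt ℂ f x) (hg : AnalyticAt ℂ g x)
    (h : ∀ᶠ y in 𝓝[≠] x, f =O[𝓝 y] g) : f =O[𝓝 x] g := by
  obtain ⟨ε, hε, H⟩ := Metric.eventually_nhds_iff.1 (hf.eventually_analyticAt.and
    (hg.eventually_analyticAt.and (eventually_nhdsWithin_iff.1 h)))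
  obtain ⟨r, hr, rfl⟩ : ∃ r : ℝ, 0 < r ∧ ε = 4 * r := ⟨ε / 4, by positivity, by ring⟩
  have hK : IsCompact (closedBall x (2 * r) \ ball x (r / 2)) :=
    (isCompact_closedBall _ _).diff isOpen_ball
  obtain ⟨C, hC⟩ : ∃ C : ℝ, ∀ y ∈ closedBall x (2 * r) \ ball x (r / 2),
      ∀ᶠ z in 𝓝 y, ‖f z‖ ≤ C * ‖g z‖ := by
    refine hK.induction_on (p := fun S => ∃ C : ℝ, ∀ y ∈ S, ∀ᶠ z in 𝓝 y, ‖f z‖ ≤ C * ‖g z‖)
      ⟨0, fun _ h => h.elim⟩ (fun S T hST ⟨C, hC⟩ => ⟨C, fun y hy => hC y (hST hy)⟩)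
      (fun S T ⟨C, hC⟩ ⟨D, hD⟩ => ⟨max C D, fun y hy => ?_⟩) fun y hy => ?_
    · rcases hy with hy | hy
      · exact (hC y hy).mono fun z hz =>
          hz.trans (mul_le_mul_of_nonneg_right (le_max_left _ _) (norm_nonneg _))
      · exact (hD y hy).mono fun z hz =>
          hz.trans (mul_le_mul_of_nonneg_right (le_max_right _ _) (norm_nonneg _))
    · have h1 : dist y x ≤ 2 * r := hy.1
      have h2 : y ≠ x := fun e => hy.2 (e ▸ mem_ball_self (half_pos hr))
      obtain ⟨c, hc⟩ := ((H (y := y) (by linarith)).2.2 h2).bound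
      exact ⟨_, mem_nhdsWithin_of_mem_nhds hc.eventually_nhds, c, fun z hz => hz⟩
  have key : ∀ y, dist y x < r / 2 → y ≠ x → ‖f y‖ ≤ C * ‖g y‖ := fun y hy hne => by
    by_cases h0 : g y = 0
    · rw [(((H (y := y) (by linarith)).2.2 hne).eq_zero_imp.self_of_nhds h0), h0]
      simp
    obtain ⟨v, hv, hx⟩ : ∃ v : ℂ × ℂ, ‖v‖ = 1 ∧ ∀ z : ℂ, y + z • v ≠ x := by
      by_cases h1 : y.1 = x.1
      · refine ⟨(1, 0), by simp, fun z e => hne (Prod.ext h1 ?_)⟩
        simpa using congrArg Prod.snd e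
      · refine ⟨(0, 1), by simp, fun z e => h1 ?_⟩
        simpa using congrArg Prod.fst e
    have hl : ∀ z : ℂ, AnalyticAt ℂ (fun z : ℂ => y + z • v) z := fun z =>
      analyticAt_const.add (analyticAt_id.smul analyticAt_const)
    have hd : ∀ z : ℂ, dist (y + z • v) y = ‖z‖ := fun z => by
      rw [dist_eq_norm, add_sub_cancel_left, norm_smul, hv, mul_one]
    have hb : ∀ z ∈ closedBall (0 : ℂ) r, dist (y + z • v) x ≤ 2 * r := fun z hz => by
      have := dist_triangle (y + z • v) y x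
      rw [hd] at this
      linarith [mem_closedBall_zero_iff.1 hz]
    have hb' : ∀ z ∈ closedBall (0 : ℂ) r, dist (y + z • v) x < 4 * r := fun z hz => by
      linarith [hb z hz]
    have := max_ratio (f := fun z => f (y + z • v)) (g := fun z => g (y + z • v)) (C := C) hr
      (fun z hz => (H (hb' z hz)).1.comp_of_eq' (hl z) rfl)
      (fun z hz => (H (hb' z hz)).2.1.comp_of_eq' (hl z) rfl)
      (fun z hz => ((H (hb' z hz)).2.2 (hx z)).comp_tendsto (hl z).continuousAt)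
      (fun z hz => (hl z).continuousAt.eventually
        (hC _ ⟨hb z (sphere_subset_closedBall hz), fun h1 => ?_⟩)) (by simpa using h0)
    · simpa using this
    · have h2 := dist_triangle_right (y + z • v) y x
      rw [hd, mem_sphere_zero_iff_norm.1 hz] at h2
      linarith [mem_ball.1 h1]
  have h1 : ∀ᶠ y in 𝓝[≠] x, ‖f y‖ ≤ C * ‖g y‖ :=
    eventually_nhdsWithin_iff.2 (Metric.eventually_nhds_iff.2 ⟨_, half_pos hr, key⟩)
  have h2 : ‖f x‖ ≤ C * ‖g x‖ :=
    le_of_tendsto_of_tendsto (hf.continuousAt.norm.tendsto.mono_left nhdsWithin_le_nhds)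
      ((hg.continuousAt.norm.tendsto.const_mul C).mono_left nhdsWithin_le_nhds) h1
  refine IsBigO.of_bound C (Metric.eventually_nhds_iff.2 ⟨_, half_pos hr, fun y hy => ?_⟩)
  by_cases h3 : y = x
  · rwa [h3]
  · exact key y hy h3

end Vale.Agent.P267C
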