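import Vale.Agent.P267C.Mfd
import Vale.Agent.P267C.One

/-! Functions on a curve near a smooth point. -/

open Set Filter Metric Asymptotics
open scoped Manifold ContDiff Topology

noncomputable section

namespace Vale.Agent.P267C

set_option linter.unusedSectionVars false

variable {E : Type} [NormedAddCommGroup E] [NormedSpace ℂ E] [FiniteDimensional ℂ E] {M : Type}
  [TopologicalSpace M] [ChartedSpace E M] [IsManifold 𝓘(ℂ, E) ω M] [T2Space M]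
  [SecondCountableTopology M] [ConnectedSpace M]

variable {N : M → ℝ} {D : Set M} {f : M → ℂ} {c : M → ℂ × ℂ} {ψ : ℂ × ℂ → M} {p y : M}
  {t : M → ℝ} {κ : ℂ}

theorem Good.ev (h : Good E D f y) (hf : ContinuousAt f y) :
    ∀ᶠ x in 𝓝 y, x ∈ D → Good E D f x := by
  obtain ⟨σ, h0, -, h1, h2⟩ := h
  filter_upwards [hf.eventually h0.ev, hf.eventually h1.eventually_nhds, h2, h2.eventually_nhds]
    with x a1 a2 a3 a4 hx using ⟨σ, a1, a3 hx, a2, a4⟩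

theorem Good.not_flat (h : Good E D f y) : ¬ Flat D f y := fun hF => by
  obtain ⟨σ, h0, e, h1, -⟩ := h
  have h2 : Tendsto σ (𝓝 (f y)) (𝓝 y) := by
    have := h0.continuousAt.tendsto
    rwa [e] at this
  obtain ⟨w, ⟨⟨a1, a2⟩, a3⟩, a4⟩ := (((h1.and (h2.eventually hF)).filter_mono
    nhdsWithin_le_nhds).and (self_mem_nhdsWithin (a := f y) (s := {f y}ᶜ))).exists
  exact a4 (a2.symm.trans (a3 a1))

theorem Flat.ev (h : Flat D f y) : ∀ᶠ x in 𝓝 y, x ∈ D → Flat D f x := by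
  filter_upwards [h, Eventually.eventually_nhds h] with x a1 a2 hx
  exact a2.mono fun x' a3 hx' => (a3 hx').trans (a1 hx).symm

/-- The parametrisation of the curve. -/
theorem loc_par (hc : Crd E c ψ p) (hD : ∀ᶠ y in 𝓝 p, (y ∈ D ↔ (c y).2 = 0)) :
    ∃ γ : ℂ → M, Ho E γ 0 ∧ γ 0 = p ∧ (∀ᶠ z in 𝓝 0, γ z ∈ D ∧ (c (γ z)).1 = z) ∧
      (∀ᶠ y in 𝓝 p, y ∈ D → γ (c y).1 = y) ∧ Tendsto (fun y => (c y).1) (𝓝 p) (𝓝 0) ∧
      ∀ᶠ y in 𝓝 p, ContinuousAt (fun y => (c y).1) y := by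
  have h1 : Tendsto (fun z : ℂ => (z, (0 : ℂ))) (𝓝 0) (𝓝 0) :=
    (by fun_prop : Continuous fun z : ℂ => (z, (0 : ℂ))).tendsto 0
  refine ⟨fun z => ψ (z, 0), Ho.pre (u := fun z : ℂ => (z, (0 : ℂ))) hc.ho
    (analyticAt_id.prod analyticAt_const), hc.p0, ?_, ?_, (continuous_fst.tendsto 0).comp hc.tc,
    hc.an.ev.mono fun y hy => hy.continuousAt.fst⟩
  · filter_upwards [h1.eventually hc.r, (hc.tψ.comp h1).eventually hD] with z a1 a2
    exact ⟨a2.2 (congrArg Prod.snd a1), congrArg Prod.fst a1⟩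
  · filter_upwards [hD, hc.l] with y a1 a2 hy
    rw [← a1.1 hy]
    exact a2

theorem loc_good {γ : ℂ → M} {a : M → ℂ} {x : M} (h0 : Ho E γ (a x)) (e : γ (a x) = x)
    (h1 : ∀ᶠ z in 𝓝 (a x), γ z ∈ D) (ha : ContinuousAt a x)
    (h2 : ∀ᶠ y in 𝓝 x, y ∈ D → γ (a y) = y) (hu : AnalyticAt ℂ (fun z => f (γ z)) (a x))
    (hd : deriv (fun z => f (γ z)) (a x) ≠ 0) : Good E D f x := by
  obtain ⟨τ, b1, b2, b3, b4⟩ := loc_inv hu hd
  rw [e] at b1 b2 b3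
  have b5 : Tendsto τ (𝓝 (f x)) (𝓝 (a x)) := by
    have := b1.continuousAt.tendsto
    rwa [b2] at this
  refine ⟨fun w => γ (τ w), Ho.pre (b2.symm ▸ h0) b1, (congrArg γ b2).trans e,
    (b5.eventually h1).and b3, ?_⟩
  filter_upwards [h2, ha.eventually b4] with y a1 a2 hy
  rw [a1 hy] at a2
  rw [a2, a1 hy]

theorem loc_sm (h : Sm E N y) (hf : ∀ᶠ x in 𝓝 y, N x = 0 → CD E f x) :
    Flat {x | N x = 0} f y ∨
      ∀ᶠ x in 𝓝[≠] y, N x = 0 → Good E {x | N x = 0} f x ∧ f x ≠ f y := by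
  obtain ⟨c, ψ, hc, hD⟩ := h
  obtain ⟨γ, g0, g1, g2, g3, g4, g5⟩ := loc_par (D := {x | N x = 0}) hc hD
  have g6 : Tendsto γ (𝓝 0) (𝓝 y) := g1 ▸ g0.continuousAt.tendsto
  have hu : AnalyticAt ℂ (fun z => f (γ z)) 0 := by
    refine Complex.analyticAt_iff_eventually_differentiableAt.2 ?_
    filter_upwards [g2, g0.ev, g6.eventually hf] with z a1 a2 a3 using (a3 a1.1).comp_ho a2
  refine (loc_dich hu).imp (fun h => ?_) fun h => ?_
  · filter_upwards [g3, g4.eventually h] with x a1 a2 hx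
    rwa [a1 hx, g1] at a2
  · rw [eventually_nhdsWithin_iff] at h ⊢
    filter_upwards [g3, g3.eventually_nhds, g5, g4.eventually h, g4.eventually g0.ev,
      g4.eventually g2.eventually_nhds, g4.eventually hu.eventually_analyticAt]
      with x a1 a2 a3 a4 a5 a6 a7 hne hx
    have a8 := a4 fun e => hne ((a1 hx).symm.trans ((congrArg γ e).trans g1))
    refine ⟨loc_good a5 (a1 hx) (a6.mono fun _ h => h.1) a3 a2 a7 a8.2, ?_⟩
    have a9 := a8.1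
    rwa [a1 hx, g1] at a9

theorem loc_pole (hc : Crd E c ψ p) (hD : ∀ᶠ y in 𝓝 p, (y ∈ D ↔ (c y).2 = 0))
    (h : Pole E t D c p f κ) : ∃ σ : ℂ → M, Ho E σ 0 ∧ σ 0 = p ∧
      (∀ᶠ w in 𝓝[≠] (0 : ℂ), σ w ∈ D ∧ σ w ≠ p ∧ f (σ w) = w⁻¹) ∧
      (∀ᶠ y in 𝓝[≠] p, y ∈ D → Good E D f y ∧ f y ≠ 0 ∧ σ (f y)⁻¹ = y) ∧
      ∀ R : ℝ, ∀ᶠ y in 𝓝[≠] p, y ∈ D → R < ‖f y‖ := by
  obtain ⟨γ, g0, g1, g2, g3, g4, g5⟩ := loc_par hc hD
  obtain ⟨k, hk⟩ := h.loc
  have g6 : Tendsto γ (𝓝 0) (𝓝 p) := g1 ▸ g0.continuousAt.tendsto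
  have hH : AnalyticAt ℂ (fun z => k (γ z)) 0 := by
    refine Complex.analyticAt_iff_eventually_differentiableAt.2 ?_
    filter_upwards [g2, g0.ev, g6.eventually hk] with z a1 a2 a3 using (a3 a1.1).1.comp_ho a2
  have hq : AnalyticAt ℂ (fun z => 1 + z * k (γ z)) 0 := analyticAt_const.add (analyticAt_id.mul hH)
  obtain ⟨u, hu⟩ : ∃ u : ℂ → ℂ, u = fun z => z / (1 + z * k (γ z)) := ⟨_, rfl⟩
  have u0 : u 0 = 0 := by simp [hu]
  have u1 : AnalyticAt ℂ u 0 := hu ▸ analyticAt_id.div hq (by simp)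
  have u2 : deriv u 0 ≠ 0 := by
    have := ((hasDerivAt_id (0 : ℂ)).div hq.differentiableAt.hasDerivAt (by simp)).deriv
    rw [hu]
    refine this.trans_ne ?_
    simp
  have key : ∀ᶠ z in 𝓝 (0 : ℂ), z ≠ 0 → γ z ≠ p ∧ u z ≠ 0 ∧ f (γ z) = (u z)⁻¹ := by
    filter_upwards [g2, g6.eventually hk, hq.continuousAt.eventually_ne (y := 0) (by simp)]
      with z a1 a2 a3 hz
    have a4 : γ z ≠ p := fun e => hz (by rw [← a1.2, e, hc.c0]; rfl)
    refine ⟨a4, hu ▸ div_ne_zero hz a3, ?_⟩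
    rw [(a2 a1.1).2 a4, a1.2, hu]
    field_simp
  obtain ⟨τ, b1, b2, b3, b4⟩ := loc_inv u1 u2
  rw [u0] at b1 b2 b3
  have b5 : Tendsto τ (𝓝 0) (𝓝 0) := by
    have := b1.continuousAt.tendsto
    rwa [b2] at this
  have hne : ∀ y, y ≠ p → γ (c y).1 = y → (c y).1 ≠ 0 := fun y h1 h2 e =>
    h1 (h2.symm.trans ((congrArg γ e).trans g1))
  refine ⟨fun w => γ (τ w), Ho.pre (b2.symm ▸ g0) b1, (congrArg γ b2).trans g1, ?_, ?_, fun R => ?_⟩
  · rw [eventually_nhdsWithin_iff]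
    filter_upwards [b3, b5.eventually g2, b5.eventually key] with w a1 a2 a3 hw
    have a4 := a3 fun e => hw (by rw [← a1, e, u0]; rfl)
    exact ⟨a2.1, a4.1, by rw [a4.2.2, a1]⟩
  · rw [eventually_nhdsWithin_iff]
    filter_upwards [g3, g3.eventually_nhds, g5, g4.eventually key, g4.eventually g0.ev,
      g4.eventually g2.eventually_nhds, g4.eventually u1.eventually_analyticAt,
      g4.eventually key.eventually_nhds, g4.eventually b4,
      g4.eventually (u1.deriv.continuousAt.eventually_ne u2)]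
      with y a1 a2 a3 a4 a5 a6 a7 a8 a9 a10 hp hy
    have c1 := hne y hp (a1 hy)
    obtain ⟨-, c2, c3⟩ := a4 c1
    have c4 : (fun z => f (γ z)) =ᶠ[𝓝 (c y).1] fun z => (u z)⁻¹ := by
      filter_upwards [a8, eventually_ne_nhds c1] with z d1 d2 using (d1 d2).2.2
    rw [a1 hy] at c3
    refine ⟨loc_good a5 (a1 hy) (a6.mono fun _ h => h.1) a3 a2 ((a7.inv c2).congr c4.symm) ?_,
      c3 ▸ inv_ne_zero c2, by rw [c3, inv_inv, a9, a1 hy]⟩
    rw [c4.deriv_eq, (a7.differentiableAt.hasDerivAt.fun_inv c2).deriv]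
    exact div_ne_zero (neg_ne_zero.2 a10) (pow_ne_zero 2 c2)
  · rw [eventually_nhdsWithin_iff]
    have hR : 0 < |R| + 1 := by positivity
    have u3 : ∀ᶠ z in 𝓝 (0 : ℂ), ‖u z‖ < (|R| + 1)⁻¹ :=
      u1.continuousAt.norm.eventually (gt_mem_nhds (by simpa [u0] using hR))
    filter_upwards [g3, g4.eventually key, g4.eventually u3] with y a1 a2 a3 hp hy
    obtain ⟨-, c2, c3⟩ := a2 (hne y hp (a1 hy))
    rw [a1 hy] at c3
    rw [c3, norm_inv]
    have := (lt_inv_comm₀ (norm_pos_iff.2 c2) hR).1 a3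
    linarith [le_abs_self R]

end Vale.Agent.P267C
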