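import Vale.Agent.P267C.Deg
import Vale.Agent.P267C.Ext

/-! The rational curve through a smooth point. -/

open Set Filter Metric Asymptotics
open scoped Manifold ContDiff Topology

noncomputable section

namespace Vale.Agent.P267C

set_option linter.unusedSectionVars false

variable {E : Type} [NormedAddCommGroup E] [NormedSpace ℂ E] [FiniteDimensional ℂ E] {M : Type}
  [TopologicalSpace M] [ChartedSpace E M] [IsManifold 𝓘(ℂ, E) ω M] [T2Space M]
  [SecondCountableTopology M] [ConnectedSpace M]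

variable {t N : M → ℝ} {c : M → ℂ × ℂ} {ψ : ℂ × ℂ → M} {p : M} {f : M → ℂ} {κ : ℂ}

theorem Cu.rat (h : Cu E t N c ψ p f κ) (hd : NoDeep E t {x | N x = 0} p) :
    ∃ C, RatC E C ∧ (∀ x ∈ C, N x = 0) ∧ ∀ᶠ y in 𝓝 p, N y = 0 → y ∈ C := by
  obtain ⟨φ, σ, h1, h2, h3, h4, h5⟩ := h.inv
  have hσ : Tendsto σ (𝓝[≠] 0) (𝓝 p) := h3 ▸ h2.continuousAt.tendsto.mono_left nhdsWithin_le_nhds
  obtain ⟨Φ, k1, k2⟩ := h.ext hd h.sv_countable h.sv_closed h1
    (mem_closure_of_tendsto hσ (h4.mono fun w hw => ⟨w⁻¹, hw.1, hw.2.symm⟩))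
  have hp : N p = 0 := h.sm.self_of_nhds.2 (by rw [h.crd.c0]; rfl)
  have e : ∀ z : ℂ, z ≠ 0 → Function.update (fun z : ℂ => Φ z⁻¹) 0 p z = Φ z⁻¹ :=
    fun z hz => Function.update_of_ne hz _ _
  have e0 : Function.update (fun z : ℂ => Φ z⁻¹) 0 p 0 = p := Function.update_self _ _ _
  refine ⟨_, ⟨Φ, Function.update (fun z : ℂ => Φ z⁻¹) 0 p, fun z => (k1 z).1, fun z => ?_, e,
    fun a b hab => by rw [← (k1 a).2.2.2, hab, (k1 b).2.2.2], rfl⟩, ?_, ?_⟩
  · rcases eq_or_ne z 0 with rfl | hz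
    · refine h2.congr_of_eventuallyEq ?_
      rw [← nhdsNE_sup_pure]
      exact eventually_sup.2 ⟨(h4.and self_mem_nhdsWithin).mono fun w hw => by
        rw [e w hw.2, k2 _ hw.1.1, hw.1.2], eventually_pure.2 (e0.trans h3.symm)⟩
    · exact (Ho.pre (u := fun z : ℂ => z⁻¹) (k1 z⁻¹).1 (analyticAt_inv hz)).congr_of_eventuallyEq
        ((eventually_ne_nhds hz).mono e)
  · rintro x (⟨z, rfl⟩ | ⟨z, rfl⟩)
    · exact (k1 z).2.1
    · rcases eq_or_ne z 0 with rfl | hz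
      · rwa [e0]
      · rw [e z hz]
        exact (k1 _).2.1
  · rw [← nhdsNE_sup_pure]
    exact eventually_sup.2 ⟨h5.mono fun y hy hN => .inl ⟨f y, (k2 _ (hy hN).1).trans (hy hN).2⟩,
      eventually_pure.2 fun _ => .inr ⟨0, e0⟩⟩

end Vale.Agent.P267C
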