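import Vale.Agent.P267C.CntB
import Vale.Agent.P267C.Rat
import Vale.Agent.P267C.Deep

/-! There are enough rational curves. -/

open Set Filter Metric Asymptotics
open scoped Manifold ContDiff Topology

noncomputable section

namespace Vale.Agent.P267C

set_option linter.unusedSectionVars false

variable {E : Type} [NormedAddCommGroup E] [NormedSpace ℂ E] [FiniteDimensional ℂ E] {M : Type}
  [TopologicalSpace M] [ChartedSpace E M] [IsManifold 𝓘(ℂ, E) ω M] [T2Space M]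
  [SecondCountableTopology M] [ConnectedSpace M]

variable {n : ℕ} {t : M → ℝ} {g : Equiv.Perm M} {S : Fin n → M → ℝ} {W : Finset (Fin n × ℤ)}
  {u v : Fin n × ℤ → ℕ} {C C' : Set M} {x y p : M}

theorem Cv.rat (h : Cv E t g S) (hp : Sm E (Pr g S W) p) :
    ∃ C, RatC E C ∧ ∀ᶠ y in 𝓝 p, Pr g S W y = 0 → y ∈ C := by
  obtain ⟨c, ψ, hc, h1⟩ := hp
  obtain ⟨f, κ, h2⟩ := h.hE W c ψ p hc h1
  obtain ⟨C, h3, -, h4⟩ := Cu.rat ⟨h.tc, h.tp, h.secP W,
    sing_countable h.dim (h.secP W) (h.neP W), h.topP W, hc, h1, h2⟩ (h.noDeep W p)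
  exact ⟨C, h3, h4⟩

theorem sub_sat (g : Equiv.Perm M) (C : Set M) : C ⊆ Sat g C := fun x hx =>
  mem_iUnion.2 ⟨0, x, hx, by simp⟩

theorem Cv.bound (h : Cv E t g S) {r : ℕ} (A : Fin r → Set M) (hA : ∀ j, RatC E (A j)) :
    ∃ B : ℝ, ∀ j, ∀ x ∈ A j, |t x| ≤ B := by
  have h1 : IsCompact (⋃ j, A j) := isCompact_iUnion fun j => (hA j).compact
  obtain ⟨B, hB⟩ := h1.exists_bound_of_continuousOn h.tc.continuousOn
  exact ⟨B, fun j x hx => hB x (mem_iUnion.2 ⟨j, hx⟩)⟩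

theorem Cv.mu (h : Cv E t g S) (W : Finset (Fin n × ℤ)) (hC : RatC E C) :
    ∃ μ : Fin n × ℤ → ℕ, (∀ x ∈ C, Pr g S W x = 0) → ∀ x ∈ C, Sm E (Pr g S W) x → ∀ u v,
      ∑ a ∈ W, u a * μ a = ∑ a ∈ W, v a * μ a → Pw g S W u =Θ[𝓝 x] Pw g S W v := by
  by_cases h0 : ∃ q ∈ C, Sm E (Pr g S W) q
  · obtain ⟨q, hq, hq'⟩ := h0
    obtain ⟨μ, hμ⟩ := h.cmp_sm hq'
    refine ⟨μ, fun h1 x hx hx' u v h2 => ?_⟩
    exact h.cmp_rat hC h1 hq hx hq' hx' (((hμ u v).self_of_nhds (h1 q hq)).2 h2)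
  · exact ⟨0, fun _ x hx hx' => (h0 ⟨x, hx, hx'⟩).elim⟩

theorem Cv.count (h : Cv E t g S) {r : ℕ} (A : Fin r → Set M) (hA : ∀ j, RatC E (A j))
    (h1 : ∀ C, RatC E C → ∃ j, Sat g C = Sat g (A j)) : n ≤ r := by
  by_contra hn
  push Not at hn
  obtain ⟨R, hR⟩ := h.hI
  obtain ⟨B, hB⟩ := h.bound A hA
  obtain ⟨T, hT⟩ := h.topN
  obtain ⟨c, hc⟩ := exists_nat_ge (max (R + B) (T + B))
  have hc1 : R + B ≤ c := (le_max_left _ _).trans hc
  have hc2 : T + B ≤ c := (le_max_right _ _).trans hc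
  set L : ℕ := r * c with hL
  choose μ hμ using fun b : Fin r × ℤ => h.mu (Win n L) ((hA b.1).image h b.2)
  have hcard : (Win r (L + c)).card < (Win n L).card := by
    have e : ∀ a b : ℕ, (Win a b).card = a * (2 * b + 1) := by
      intro a b
      simp only [Win, Finset.card_product, Finset.card_univ, Fintype.card_fin, Int.card_Icc]
      congr 1
      omega
    rw [e, e]
    have : (r + 1) * (2 * L + 1) ≤ n * (2 * L + 1) := Nat.mul_le_mul_right _ hn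
    nlinarith
  obtain ⟨u, v, ⟨a, ha, huv⟩, h2⟩ := lin_dep _ _ hcard μ
  refine huv (hR L u v ?_ a ha)
  refine h.cmp_all (U := {x | -(L : ℝ) - R < t x}) (isOpen_lt continuous_const h.tc) ?_
  intro x hx hx'
  obtain ⟨C, hC, h3⟩ := h.rat hx'
  obtain ⟨j, hj⟩ := h1 C hC
  obtain ⟨k, hk, h4⟩ := h.orb hx' (hA j) (h3.mono fun y hy h0 => hj ▸ sub_sat g C (hy h0))
  refine hμ (j, k) h4 x hk hx' u v (h2 (j, k) ?_)
  obtain ⟨z, hz, rfl⟩ := hk
  have h5 := abs_le.1 (hB j z hz)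
  have h6 := h.tk k z
  obtain ⟨b, hb, h7⟩ := Finset.prod_eq_zero_iff.1 hx'.zero
  have h8 := hT b _ h7
  have h9 : -(L : ℤ) ≤ b.2 := (Finset.mem_Icc.1 (Finset.mem_product.1 hb).2).1
  have h9' : -(L : ℝ) ≤ (b.2 : ℝ) := by exact_mod_cast h9
  have hx2 : -(L : ℝ) - R < t ((g ^ k) z) := hx
  refine Finset.mem_product.2 ⟨Finset.mem_univ _, Finset.mem_Icc.2 ⟨?_, ?_⟩⟩
  · have : -((L + c : ℕ) : ℝ) ≤ (k : ℝ) := by push_cast; linarith [h5.2]
    exact_mod_cast this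
  · have : (k : ℝ) ≤ ((L + c : ℕ) : ℝ) := by push_cast; linarith [h5.1]
    exact_mod_cast this

theorem Cv.curves (h : Cv E t g S) : ∃ A : Fin n → Set M, (∀ i, RatC E (A i)) ∧
    ∀ i j, Sat g (A i) = Sat g (A j) → i = j := by
  have key : ∀ m, m ≤ n → ∃ A : Fin m → Set M, (∀ i, RatC E (A i)) ∧
      Function.Injective fun i => Sat g (A i) := by
    intro m
    induction m with
    | zero => exact fun _ => ⟨Fin.elim0, fun i => i.elim0, fun i => i.elim0⟩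
    | succ m ih =>
      intro hm
      obtain ⟨A, h1, h2⟩ := ih (by omega)
      by_cases h3 : ∀ C, RatC E C → ∃ j, Sat g C = Sat g (A j)
      · have := h.count A h1 h3
        omega
      · push Not at h3
        obtain ⟨C, hC, h4⟩ := h3
        refine ⟨Fin.cons C A, fun i => Fin.cases hC h1 i, ?_⟩
        have e : (fun i => Sat g (Fin.cons (α := fun _ => Set M) C A i)) =
            Fin.cons (Sat g C) fun i => Sat g (A i) := by
          funext i
          exact Fin.cases rfl (fun _ => rfl) i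
        rw [e, Fin.cons_injective_iff]
        exact ⟨fun ⟨j, hj⟩ => h4 j hj.symm, h2⟩
  obtain ⟨A, h1, h2⟩ := key n le_rfl
  exact ⟨A, h1, fun i j hij => h2 hij⟩

end Vale.Agent.P267C
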