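import Vale.Agent.P267C.Defs

/-! Holomorphic maps and local coordinates. -/

open Set Filter Metric Asymptotics
open scoped Manifold ContDiff Topology

noncomputable section

namespace Vale.Agent.P267C

set_option linter.unusedSectionVars false

variable {E : Type} [NormedAddCommGroup E] [NormedSpace ℂ E] [FiniteDimensional ℂ E] {M : Type}
  [TopologicalSpace M] [ChartedSpace E M] [IsManifold 𝓘(ℂ, E) ω M] [T2Space M]
  [SecondCountableTopology M] [ConnectedSpace M]

variable {F G : Type} [NormedAddCommGroup F] [NormedSpace ℂ F] [FiniteDimensional ℂ F]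
  [NormedAddCommGroup G] [NormedSpace ℂ G] [FiniteDimensional ℂ G]
  {c : M → ℂ × ℂ} {ψ : ℂ × ℂ → M} {p : M}

theorem lcs (E : Type) [NormedAddCommGroup E] [NormedSpace ℂ E] [FiniteDimensional ℂ E] (M : Type)
    [TopologicalSpace M] [ChartedSpace E M] : LocallyCompactSpace M :=
  have := FiniteDimensional.proper ℂ E
  ChartedSpace.locallyCompactSpace E M

theorem An.ev {f : M → F} {x : M} (h : An E f x) : ∀ᶠ y in 𝓝 x, An E f y :=
  (contMDiffAt_iff_contMDiffAt_nhds (by simp)).1 h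

theorem Ho.ev {φ : F → M} {z : F} (h : Ho E φ z) : ∀ᶠ w in 𝓝 z, Ho E φ w :=
  (contMDiffAt_iff_contMDiffAt_nhds (by simp)).1 h

theorem An.comp_ho {f : M → G} {φ : F → M} {z : F} (h : An E f (φ z)) (hφ : Ho E φ z) :
    AnalyticAt ℂ (fun w => f (φ w)) z :=
  (ContMDiffAt.comp z h hφ).contDiffAt.analyticAt

theorem An.post {f : M → F} {u : F → G} {x : M} (h : An E f x) (hu : AnalyticAt ℂ u (f x)) :
    An E (fun y => u (f y)) x :=
  ContMDiffAt.comp x hu.contDiffAt.contMDiffAt h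

theorem Ho.pre {φ : F → M} {u : G → F} {z : G} (h : Ho E φ (u z)) (hu : AnalyticAt ℂ u z) :
    Ho E (fun w => φ (u w)) z :=
  ContMDiffAt.comp z h hu.contDiffAt.contMDiffAt

theorem CD.comp_ho {f : M → ℂ} {φ : ℂ → M} {z : ℂ} (h : CD E f (φ z)) (hφ : Ho E φ z) :
    DifferentiableAt ℂ (fun w => f (φ w)) z :=
  (MDifferentiableAt.comp z h (hφ.mdifferentiableAt (by simp))).differentiableAt

/-- Removable singularities. -/
theorem ho_of_tendsto {Φ : ℂ → M} {s : ℂ} (h : ∀ᶠ w in 𝓝[≠] s, Ho E Φ w)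
    (hc : Tendsto Φ (𝓝[≠] s) (𝓝 (Φ s))) : Ho E Φ s := by
  have hc' : ContinuousAt Φ s := continuousWithinAt_compl_self.1 hc
  refine contMDiffAt_iff_target.2 ⟨hc', (AnalyticAt.contDiffAt ?_).contMDiffAt⟩
  refine Complex.analyticAt_of_differentiable_on_punctured_nhds_of_continuousAt ?_
    ((continuousAt_extChartAt (Φ s)).comp hc')
  filter_upwards [h, hc (chart_source_mem_nhds E (Φ s))] with w h1 h2
  exact (An.comp_ho (contMDiffAt_extChartAt' h2) h1).differentiableAt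

theorem Crd.p0 (h : Crd E c ψ p) : ψ 0 = p := h.c0 ▸ h.l.self_of_nhds

theorem Crd.tc (h : Crd E c ψ p) : Tendsto c (𝓝 p) (𝓝 0) := h.c0 ▸ h.an.continuousAt

theorem Crd.tψ (h : Crd E c ψ p) : Tendsto ψ (𝓝 0) (𝓝 p) := h.p0 ▸ h.ho.continuousAt

/-- Straightening a graph at a nearby point. -/
theorem Crd.shift (h : Crd E c ψ p) : ∀ᶠ y in 𝓝 p, ∀ η : ℂ → ℂ, AnalyticAt ℂ η (c y).1 →
    η (c y).1 = (c y).2 → ∃ ψ', Crd E (fun x => ((c x).1 - (c y).1, (c x).2 - η (c x).1)) ψ' y := by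
  filter_upwards [h.an.ev, h.tc h.ho.ev, h.l.eventually_nhds, h.tc h.r.eventually_nhds] with
    y h1 h2 h3 h4 η hη e
  have a1 : AnalyticAt ℂ (fun v : ℂ × ℂ => (v.1 + (c y).1, v.2 + η (v.1 + (c y).1))) 0 :=
    (analyticAt_fst.add analyticAt_const).prod (analyticAt_snd.add
      (hη.comp_of_eq (analyticAt_fst.add analyticAt_const) (zero_add _)))
  have e0 : ((0 : ℂ × ℂ).1 + (c y).1, (0 : ℂ × ℂ).2 + η ((0 : ℂ × ℂ).1 + (c y).1)) = c y := by
    simp [e]
  refine ⟨fun v => ψ (v.1 + (c y).1, v.2 + η (v.1 + (c y).1)), by simp [e],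
    h1.post (u := fun v => (v.1 - (c y).1, v.2 - η v.1)) ((analyticAt_fst.sub analyticAt_const).prod
      (analyticAt_snd.sub (hη.comp_of_eq analyticAt_fst rfl))),
    Ho.pre (u := fun v : ℂ × ℂ => (v.1 + (c y).1, v.2 + η (v.1 + (c y).1))) (by rwa [e0]) a1,
    h3.mono fun x hx => by simpa using hx, ?_⟩
  have t := a1.continuousAt.tendsto
  rw [e0] at t
  filter_upwards [t.eventually h4] with v hv
  simp [hv]

theorem mfd_dir {u : E → ℂ} (hu : AnalyticAt ℂ u 0) {b : E} (hb : b ≠ 0)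
    (h : ∀ a, a ≠ 0 → ∀ᶠ w in 𝓝 (0 : ℂ), u (w • a) = 0) : ∀ᶠ v in 𝓝 0, u v = 0 := by
  obtain ⟨r, hr, h1⟩ := Metric.eventually_nhds_iff_ball.1 hu.eventually_analyticAt
  filter_upwards [ball_mem_nhds 0 hr] with a ha
  rcases eq_or_ne a 0 with rfl | h0
  · simpa using (h b hb).self_of_nhds
  have h2 : AnalyticOnNhd ℂ (fun w : ℂ => u (w • a)) (closedBall 0 1) := fun w hw =>
    (h1 _ (by
      rw [mem_ball_zero_iff, norm_smul] at *
      exact (mul_le_of_le_one_left (norm_nonneg _) (mem_closedBall_zero_iff.1 hw)).trans_lt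
        ha)).comp_of_eq (analyticAt_id.smul analyticAt_const) rfl
  simpa using h2.eqOn_zero_of_preconnected_of_eventuallyEq_zero
    (convex_closedBall _ _).isPreconnected (mem_closedBall_self zero_le_one) (h a h0)
    (show (1 : ℂ) ∈ closedBall 0 1 by simp)

theorem exists_crd (hE : Module.finrank ℂ E = 2) {f : M → ℂ} {x : M} (hf : An E f x)
    (hne : ¬ ∀ᶠ y in 𝓝 x, f y = 0) :
    ∃ c ψ, Crd E c ψ x ∧ ¬ ∀ᶠ w in 𝓝 (0 : ℂ), f (ψ (0, w)) = 0 := by
  have h1 : An E (chartAt E x) x :=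
    contMDiffAt_of_mem_maximalAtlas (IsManifold.chart_mem_maximalAtlas x) (mem_chart_source E x)
  have h2 : Ho E (chartAt E x).symm (chartAt E x x + 0) := contMDiffAt_symm_of_mem_maximalAtlas
    (IsManifold.chart_mem_maximalAtlas x) (by simp)
  have h3 : Ho E (fun v => (chartAt E x).symm (chartAt E x x + v)) 0 :=
    h2.pre (analyticAt_const.add analyticAt_id)
  have h4 : ∀ᶠ y in 𝓝 x, (chartAt E x).symm (chartAt E x x + (chartAt E x y - chartAt E x x)) = y :=
    ((chartAt E x).eventually_left_inverse (mem_chart_source E x)).mono fun y hy => by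
      rwa [add_sub_cancel]
  have h5 : Tendsto (fun y => chartAt E x y - chartAt E x x) (𝓝 x) (𝓝 0) :=
    tendsto_sub_nhds_zero_iff.2 h1.continuousAt
  have L₀ : (ℂ × ℂ) ≃L[ℂ] E := ContinuousLinearEquiv.ofFinrankEq (by simp [hE])
  have hb : L₀ (0, 1) ≠ 0 := by simp
  obtain ⟨a, ha, h6⟩ : ∃ a : E, a ≠ 0 ∧
      ¬ ∀ᶠ w in 𝓝 (0 : ℂ), f ((chartAt E x).symm (chartAt E x x + w • a)) = 0 := by
    by_contra k
    refine hne ((h4.and (h5.eventually (mfd_dir (An.comp_ho (by simpa using hf) h3) hb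
      fun a ha => not_not.1 fun k' => k ⟨a, ha, k'⟩))).mono fun y hy => ?_)
    rw [← hy.1]
    exact hy.2
  obtain ⟨A, hA⟩ := SeparatingDual.exists_continuousLinearEquiv_apply_eq (R := ℂ) hb ha
  obtain ⟨L, hL⟩ : ∃ L : (ℂ × ℂ) ≃L[ℂ] E, ∀ w : ℂ, L (0, w) = w • a := ⟨L₀.trans A, fun w => by
    rw [← hA, ← map_smul, ← map_smul]
    simp⟩
  refine ⟨fun y => L.symm (chartAt E x y - chartAt E x x),
    fun v => (chartAt E x).symm (chartAt E x x + L v), ⟨by simp,
      h1.post (u := fun v => L.symm (v - chartAt E x x))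
        ((L.symm.analyticAt _).comp_of_eq (analyticAt_id.sub analyticAt_const) rfl),
      Ho.pre (φ := fun v => (chartAt E x).symm (chartAt E x x + v)) (by simpa using h3)
        (L.analyticAt _), by simpa using h4, ?_⟩, by simpa only [hL] using h6⟩
  have t : Tendsto (fun v => chartAt E x x + L v) (𝓝 0) (𝓝 (chartAt E x x)) :=
    Continuous.tendsto' (by fun_prop) _ _ (by simp)
  filter_upwards [t.eventually ((chartAt E x).eventually_right_inverse' (mem_chart_source E x))]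
    with v hv
  simp [hv]

end Vale.Agent.P267C
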