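import Vale.Agent.P267C.Hart
import Vale.Agent.P290.Int

/-! Division by powers of a coordinate. -/

open Set Filter Metric Asymptotics
open scoped Manifold ContDiff Topology

noncomputable section

namespace Vale.Agent.P267C

theorem mult_mem {r : ℝ} {z w : ℂ} :
    (z, w) ∈ ball (0 : ℂ × ℂ) r ↔ z ∈ ball (0 : ℂ) r ∧ w ∈ ball (0 : ℂ) r := by
  simp only [mem_ball_zero_iff, Prod.norm_def, max_lt_iff]

theorem mult_step {u : ℂ × ℂ → ℂ} {r : ℝ} (hr : 0 < r) (hu : AnalyticOnNhd ℂ u (ball 0 r))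
    (h : ∀ᶠ z in 𝓝 (0 : ℂ), u (z, 0) = 0) :
    ∃ u' : ℂ × ℂ → ℂ, AnalyticOnNhd ℂ u' (ball 0 r) ∧ ∀ v ∈ ball (0 : ℂ × ℂ) r, u v = v.2 * u' v := by
  have h1 : AnalyticOnNhd ℂ (fun z : ℂ => u (z, 0)) (ball 0 r) := fun z hz =>
    (hu (z, 0) (mult_mem.2 ⟨hz, mem_ball_self hr⟩)).comp (f := fun z : ℂ => (z, (0 : ℂ)))
      (analyticAt_id.prod analyticAt_const)
  have h2 := h1.eqOn_zero_of_preconnected_of_eventuallyEq_zero (convex_ball 0 r).isPreconnected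
    (mem_ball_self hr) h
  obtain ⟨u', h3, h4⟩ := Vale.Agent.P290.divide hu fun w hw _ =>
    eventually_of_mem (isOpen_ball.mem_nhds (mult_mem.1 hw).1) h2
  exact ⟨u', h3, h4.self_of_nhdsSet⟩

theorem mult_zero {F : ℂ × ℂ → ℂ} {r : ℝ} (hr : 0 < r) (hF : AnalyticOnNhd ℂ F (ball 0 r))
    (h : ∀ k : ℕ, ∃ u : ℂ × ℂ → ℂ, AnalyticOnNhd ℂ u (ball 0 r) ∧
      ∀ v ∈ ball (0 : ℂ × ℂ) r, F v = v.2 ^ k * u v) : ∀ v ∈ ball (0 : ℂ × ℂ) r, F v = 0 := by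
  rintro ⟨z, w⟩ hv
  obtain ⟨hz, hw⟩ := mult_mem.1 hv
  have h1 : ∀ G : ℂ × ℂ → ℂ, AnalyticOnNhd ℂ G (ball 0 r) →
      AnalyticOnNhd ℂ (fun w : ℂ => G (z, w)) (ball 0 r) := fun G hG w hw =>
    (hG (z, w) (mult_mem.2 ⟨hz, hw⟩)).comp (f := fun w : ℂ => (z, w))
      (analyticAt_const.prod analyticAt_id)
  refine (h1 F hF).eqOn_zero_of_preconnected_of_eventuallyEq_zero (convex_ball 0 r).isPreconnected
    (mem_ball_self hr) (analyticOrderAt_eq_top.1 (ENat.eq_top_iff_forall_ge.2 fun k => ?_)) hw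
  obtain ⟨u, h2, h3⟩ := h k
  refine (natCast_le_analyticOrderAt (h1 F hF 0 (mem_ball_self hr))).2
    ⟨_, h1 u h2 0 (mem_ball_self hr), eventually_of_mem (ball_mem_nhds 0 hr) fun w hw => ?_⟩
  rw [h3 _ (mult_mem.2 ⟨hz, hw⟩), sub_zero, smul_eq_mul]

theorem div_pow {F : ℂ × ℂ → ℂ} (hF : AnalyticAt ℂ F 0) (hne : ¬ ∀ᶠ v in 𝓝 0, F v = 0) :
    ∃ (μ : ℕ) (u : ℂ × ℂ → ℂ), AnalyticAt ℂ u 0 ∧ (∀ᶠ v in 𝓝 0, F v = v.2 ^ μ * u v) ∧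
      ¬ ∀ᶠ z in 𝓝 (0 : ℂ), u (z, 0) = 0 := by
  obtain ⟨r, hr, hS⟩ := hF.exists_ball_analyticOnNhd
  by_contra hc
  refine hne (eventually_of_mem (ball_mem_nhds 0 hr) (mult_zero hr hS fun k => ?_))
  induction k with
  | zero => exact ⟨F, hS, fun v _ => by rw [pow_zero, one_mul]⟩
  | succ k ih =>
    obtain ⟨u, h1, h2⟩ := ih
    obtain ⟨u', h3, h4⟩ := mult_step hr h1 (by_contra fun h => hc
      ⟨k, u, h1 0 (mem_ball_self hr), eventually_of_mem (ball_mem_nhds 0 hr) h2, h⟩)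
    exact ⟨u', h3, fun v hv => by rw [h2 v hv, h4 v hv, pow_succ, mul_assoc]⟩

theorem mult {F : ℂ × ℂ → ℂ} (hF : AnalyticAt ℂ F 0) (hne : ¬ ∀ᶠ v in 𝓝 0, F v = 0)
    (h0 : ∀ᶠ v in 𝓝 (0 : ℂ × ℂ), F v = 0 → v.2 = 0) :
    ∃ μ : ℕ, F =Θ[𝓝 0] fun v => v.2 ^ μ := by
  obtain ⟨μ, u, h1, h2, h3⟩ := div_pow hF hne
  have h4 : AnalyticAt ℂ (fun z : ℂ => u (z, 0)) 0 :=
    AnalyticAt.comp (g := u) (f := fun z : ℂ => (z, (0 : ℂ))) h1 (analyticAt_id.prod analyticAt_const)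
  have h5 : ∀ᶠ v in 𝓝 (0 : ℂ × ℂ), v.1 ≠ 0 → u (v.1, 0) ≠ 0 :=
    (continuous_fst.tendsto (0 : ℂ × ℂ)).eventually (eventually_nhdsWithin_iff.1
      (h4.eventually_eq_zero_or_eventually_ne_zero.resolve_left h3))
  have h6 : (fun _ => (1 : ℂ)) =O[𝓝 0] u := by
    refine hart analyticAt_const h1 (eventually_nhdsWithin_iff.2 ?_)
    filter_upwards [h0, h2, h5, h1.eventually_analyticAt] with v a1 a2 a3 a4 a5
    have a6 : u v ≠ 0 := fun e => by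
      have a7 : v.2 = 0 := a1 (by rw [a2, e, mul_zero])
      have a8 : v = (v.1, 0) := Prod.ext rfl a7
      exact a3 (fun a9 => a5 (Prod.ext a9 a7)) (a8 ▸ e)
    exact ((isTheta_const_const one_ne_zero a6).trans
      ((isEquivalent_const_iff_tendsto a6).2 a4.continuousAt).isTheta.symm).isBigO
  have h7 : u =Θ[𝓝 0] fun _ => (1 : ℂ) := ⟨h1.continuousAt.isBigO_one ℂ, h6⟩
  refine ⟨μ, EventuallyEq.trans_isTheta h2 ?_⟩
  simpa only [mul_one] using (isTheta_refl (fun v : ℂ × ℂ => v.2 ^ μ) (𝓝 0)).mul h7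

end Vale.Agent.P267C
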