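import Mathlib

/-! Topological lemmas. -/

open Set Filter Metric Asymptotics
open scoped Manifold ContDiff Topology

noncomputable section

namespace Vale.Agent.P267C

theorem iso_pt {X : Type} [TopologicalSpace X] [T2Space X] [LocallyCompactSpace X] {U S : Set X}
    (hU : IsOpen U) (hS : S ⊆ U) (hc : ∀ x ∈ U, x ∉ S → ∀ᶠ y in 𝓝 x, y ∉ S) (hQ : S.Countable)
    (hne : S.Nonempty) : ∃ x ∈ S, ∀ᶠ y in 𝓝[≠] x, y ∉ S := by
  have hl : IsLocallyClosed S := ⟨U, closure S, hU, isClosed_closure,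
    (subset_inter hS subset_closure).antisymm fun x hx => by_contra fun h =>
      mem_closure_iff_frequently.1 hx.2 (hc x hx.1 h)⟩
  have := hl.locallyCompactSpace
  have := hQ.to_subtype
  have := hne.to_subtype
  obtain ⟨x, y, hy⟩ := nonempty_interior_of_iUnion_of_closed (f := fun x : S => ({x} : Set S))
    (fun _ => isClosed_singleton) (iUnion_of_singleton S)
  obtain rfl : y = x := mem_singleton_iff.1 (interior_subset hy)
  obtain ⟨V, hV, h⟩ := (mem_nhds_subtype S y _).1 (mem_interior_iff_mem_nhds.1 hy)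
  exact ⟨y, y.2, eventually_nhdsWithin_iff.2 (mem_of_superset hV fun z hz h1 h2 =>
    h1 (congrArg Subtype.val (@h ⟨z, h2⟩ hz)))⟩

theorem iso_countable {X : Type} [TopologicalSpace X] [SecondCountableTopology X] (S : Set X) :
    {x | x ∈ S ∧ ∀ᶠ y in 𝓝[≠] x, y ∉ S}.Countable := by
  obtain ⟨T, -, h1, h2⟩ := TopologicalSpace.countable_cover_nhdsWithin (f := fun x => {x})
    (s := {x | x ∈ S ∧ ∀ᶠ y in 𝓝[≠] x, y ∉ S}) fun x hx => eventually_nhdsWithin_iff.2
      ((eventually_nhdsWithin_iff.1 hx.2).mono fun y h hy => by_contra fun h' => h h' hy.1)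
  exact h1.mono (h2.trans_eq (biUnion_of_singleton T))

theorem countable_of_loc {X : Type} [TopologicalSpace X] [SecondCountableTopology X] {S : Set X}
    (h : ∀ x, ∃ Q : Set X, Q.Countable ∧ ∀ᶠ y in 𝓝 x, y ∈ S → y ∈ Q) : S.Countable := by
  choose Q h1 h2 using h
  obtain ⟨T, h3, h4⟩ := TopologicalSpace.countable_cover_nhds h2
  refine (h3.biUnion fun x _ => h1 x).mono fun y hy => ?_
  obtain ⟨x, hx, h5⟩ := mem_iUnion₂.1 (h4.ge (mem_univ y))
  exact mem_biUnion hx (h5 hy)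

theorem top_ball (s : ℂ) {ε : ℝ} (hε : 0 < ε) : IsPreconnected (ball s ε ∩ {s}ᶜ) := by
  have e : ball s ε ∩ {s}ᶜ = (fun w => s + Complex.exp w) '' {w | w.re < Real.log ε} := by
    ext z
    constructor
    · rintro ⟨h1, h2⟩
      have h3 : z - s ≠ 0 := sub_ne_zero.2 h2
      refine ⟨Complex.log (z - s), ?_, by simp only [Complex.exp_log h3, add_sub_cancel]⟩
      rw [mem_ofPred, Complex.log_re]
      exact Real.log_lt_log (norm_pos_iff.2 h3) (mem_ball_iff_norm.1 h1)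
    · rintro ⟨w, hw, rfl⟩
      refine ⟨mem_ball_iff_norm.2 ?_, by simp⟩
      rw [add_sub_cancel_left, Complex.norm_exp]
      exact (Real.lt_log_iff_exp_lt hε).1 hw
  rw [e]
  exact (convex_halfSpace_re_lt _).isPreconnected.image _ (by fun_prop)

theorem cluster {X : Type} [TopologicalSpace X] [T2Space X] [LocallyCompactSpace X]
    [SecondCountableTopology X] {Φ : ℂ → X} {s : ℂ} {Q : Set X} (hQ : Q.Countable)
    (hc : ∀ᶠ w in 𝓝[≠] s, ContinuousAt Φ w) (hcl : ∀ y, MapClusterPt y (𝓝[≠] s) Φ → y ∈ Q)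
    {x : X} (hx : MapClusterPt x (𝓝[≠] s) Φ) : Tendsto Φ (𝓝[≠] s) (𝓝 x) := by
  refine tendsto_nhds.2 fun V hV hxV => ?_
  obtain ⟨K, hK, hKV, cK⟩ := local_compact_nhds (hV.mem_nhds hxV)
  obtain ⟨φ, h0, h1, -⟩ := exists_continuous_zero_one_of_isCompact (isCompact_singleton (x := x))
    (isOpen_interior (s := K)).isClosed_compl
    (disjoint_singleton_left.2 (not_not.2 (mem_interior_iff_mem_nhds.2 hK)))
  obtain ⟨r, r0, r1⟩ := ((hQ.image φ).dense_compl ℝ).exists_between (zero_lt_one' ℝ)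
  have k : ∀ y, φ y < 1 → y ∈ K := fun y h => interior_subset (by_contra fun h' => h.ne (h1 h'))
  have e : ∀ᶠ w in 𝓝[≠] s, φ (Φ w) ≠ r := by
    refine not_frequently.1 fun h => ?_
    obtain ⟨y, hy, hy'⟩ := (cK.inter_right (isClosed_singleton.preimage φ.continuous :
      IsClosed (φ ⁻¹' {r}))).exists_mapClusterPt_of_frequently
        (h.mono fun w hw => ⟨k _ (hw.trans_lt r1.2), hw⟩)
    exact r0 ⟨y, hcl y hy', hy.2⟩
  obtain ⟨ε, hε, H⟩ := Metric.mem_nhdsWithin_iff.1 (hc.and e)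
  have b : ∀ᶠ w in 𝓝[≠] s, w ∈ ball s ε ∩ {s}ᶜ :=
    inter_mem (mem_nhdsWithin_of_mem_nhds (ball_mem_nhds s hε)) self_mem_nhdsWithin
  have f : ∃ᶠ w in 𝓝[≠] s, φ (Φ w) < r := hx.frequently
    (φ.continuous.continuousAt.eventually_lt continuousAt_const ((h0 rfl).trans_lt r1.1))
  exact b.mono fun w hw => hKV (k _ (((top_ball s hε).gt_of_ne (f := fun w => φ (Φ w))
    (fun z hz => (φ.continuous.continuousAt.comp (H hz).1).continuousWithinAt)
    (fun z hz => (H hz).2) (b.and_frequently f).exists hw).trans r1.2))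

theorem no_cluster {X α : Type} [TopologicalSpace X] {t : X → ℝ}
    (tp : ∀ a b, IsCompact (t ⁻¹' Icc a b)) {l : Filter α} {Φ : α → X} {T : ℝ}
    (hT : ∀ᶠ w in l, t (Φ w) ≤ T) (h : ∀ y, ¬ MapClusterPt y l Φ) :
    Tendsto (fun w => t (Φ w)) l atBot := by
  refine tendsto_atBot.2 fun a => by_contra fun h' => ?_
  obtain ⟨y, -, hy⟩ := (tp a T).exists_mapClusterPt_of_frequently
    (((not_eventually.1 h').and_eventually hT).mono fun w hw => ⟨(not_le.1 hw.1).le, hw.2⟩)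
  exact h y hy

theorem compl_conn {S : Set ℂ} (hS : S.Countable) : IsPreconnected Sᶜ := by
  exact (hS.isConnected_compl_of_one_lt_rank (by simp)).isPreconnected

theorem compl_neBot {S : Set ℂ} (hS : S.Countable) (w : ℂ) : (𝓝[Sᶜ] w).NeBot := by
  exact mem_closure_iff_nhdsWithin_neBot.1 (hS.dense_compl ℂ w)

theorem lin_dep {ι κ : Type} (W : Finset ι) (J : Finset κ) (h : J.card < W.card)
    (μ : κ → ι → ℕ) : ∃ u v : ι → ℕ, (∃ a ∈ W, u a ≠ v a) ∧
      ∀ j ∈ J, ∑ a ∈ W, u a * μ j a = ∑ a ∈ W, v a * μ j a := by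
  classical
  obtain ⟨t, h1, h2⟩ : ∃ t : W → ℤ,
      (Matrix.of fun (j : J) (a : W) => (μ j a : ℤ)).mulVecLin t = 0 ∧ t ≠ 0 := by
    by_contra! H
    have := LinearMap.finrank_le_finrank_of_injective ((injective_iff_map_eq_zero _).2 H)
    simp only [Module.finrank_fintype_fun_eq_card, Fintype.card_coe] at this
    omega
  obtain ⟨T, hT⟩ : ∃ T : ι → ℤ, ∀ a : W, T a = t a :=
    ⟨fun a => if h : a ∈ W then t ⟨a, h⟩ else 0, fun a => dif_pos a.2⟩
  obtain ⟨a, ha⟩ := Function.ne_iff.1 h2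
  refine ⟨fun a => (T a).toNat, fun a => (-T a).toNat, ⟨a, a.2, fun h => ha ?_⟩, fun j hj => ?_⟩
  · rw [← hT, Pi.zero_apply]
    simp only at h
    omega
  · have h3 := congrFun h1 ⟨j, hj⟩
    simp only [Matrix.mulVecLin_apply, Matrix.mulVec, dotProduct, Matrix.of_apply, ← hT,
      Pi.zero_apply, Finset.sum_coe_sort W fun a => (μ j a : ℤ) * T a] at h3
    zify
    rw [← sub_eq_zero, ← Finset.sum_sub_distrib, ← h3]
    exact Finset.sum_congr rfl fun a _ => by rw [← sub_mul, Int.toNat_sub_toNat_neg, mul_comm]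

end Vale.Agent.P267C
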