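import Vale.Agent.P267C.StrA
import Vale.Agent.P267C.Top

/-! A plane curve is smooth outside a countable set. -/

open Set Filter Metric Asymptotics
open scoped Manifold ContDiff Topology

noncomputable section

namespace Vale.Agent.P267C

theorem str {f : ℂ × ℂ → ℂ} {x : ℂ × ℂ} (hf : AnalyticAt ℂ f x)
    (hne : ¬ ∀ᶠ w in 𝓝 x.2, f (x.1, w) = 0) : ∃ Q : Set (ℂ × ℂ), Q.Countable ∧
      ∀ᶠ y in 𝓝 x, f y = 0 → y ∈ Q ∨ ∃ η : ℂ → ℂ, AnalyticAt ℂ η y.1 ∧ η y.1 = y.2 ∧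
        ∀ᶠ v in 𝓝 y, (f v = 0 ↔ v.2 = η v.1) := by
  obtain ⟨k₀, hk₀⟩ := dw_ne hf hne
  refine ⟨⋃ k : ℕ, {y | y ∈ {y | ∀ j ≤ k, dw j f y = 0} ∧
    ∀ᶠ v in 𝓝[≠] y, v ∉ {y | ∀ j ≤ k, dw j f y = 0}}, countable_iUnion fun k => iso_countable _, ?_⟩
  filter_upwards [hf.eventually_analyticAt, (dw_an hf k₀).continuousAt.eventually_ne hk₀]
    with y hy h1 h0
  classical
  have ex : ∃ k, dw k f y ≠ 0 := ⟨k₀, h1⟩
  have hm := Nat.find_spec ex
  have hl : ∀ j < Nat.find ex, dw j f y = 0 := fun j hj => not_not.1 (Nat.find_min ex hj)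
  obtain ⟨k, hk⟩ : ∃ k, Nat.find ex = k + 1 := Nat.exists_eq_succ_of_ne_zero fun e => by
    rw [e] at hm
    exact hm h0
  rw [hk] at hm hl
  refine or_iff_not_imp_left.2 fun hQ => ?_
  obtain ⟨η, e1, e2, e3⟩ := graph hy (hl k (Nat.lt_succ_self k)) hm
  have a1 : AnalyticAt ℂ (fun z => (z, η z)) y.1 := analyticAt_id.prod e1
  have z1 : ∀ j ≤ k, ∀ᶠ z in 𝓝 y.1, dw j f (z, η z) = 0 := fun j hj => by
    have a := (dw_an hy j).comp_of_eq a1 (by rw [e2])
    refine a.eventually_eq_zero_or_eventually_ne_zero.resolve_right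
      fun h => hQ (mem_iUnion.2 ⟨k, fun j hj => hl j (Nat.lt_succ_of_le hj), ?_⟩)
    rw [eventually_nhdsWithin_iff] at h ⊢
    filter_upwards [continuous_fst.continuousAt.eventually h, e3] with v h2 h3 h4 h5
    have h6 := h3.1 (h5 k le_rfl)
    refine h2 (fun h7 => h4 (Prod.ext h7 ?_)) ?_
    · rw [h6, ← e2]
      exact congrArg η h7
    · rw [Function.comp_apply, ← h6]
      exact h5 j hj
  have t1 : Tendsto (fun z : ℂ => z + y.1) (𝓝 0) (𝓝 y.1) :=
    (continuous_add_const _).tendsto' _ _ (zero_add _)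
  have d : ∀ j z, dw j (fun v => f (v.1 + y.1, v.2 + η (v.1 + y.1))) (z, 0) =
      dw j f (z + y.1, η (z + y.1)) := fun j z => by
    have h := congrFun (iteratedDeriv_comp_add_const j (fun w => f (z + y.1, w)) (η (z + y.1))) 0
    rw [zero_add] at h
    exact h
  have a2 : AnalyticAt ℂ (fun v : ℂ × ℂ => v.1 + y.1) 0 := analyticAt_fst.add analyticAt_const
  have key := axis (F := fun v => f (v.1 + y.1, v.2 + η (v.1 + y.1))) (k := k)
    (hy.comp_of_eq (a2.prod (analyticAt_snd.add (e1.comp_of_eq a2 (zero_add _)))) (by simp [e2]))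
    (by
      rw [show (0 : ℂ × ℂ) = (0, 0) from rfl, d, zero_add, e2]
      exact hm)
    fun j hj => (t1.eventually (z1 j hj)).mono fun z hz => (d j z).trans hz
  have t2 : Tendsto (fun v : ℂ × ℂ => (v.1 - y.1, v.2 - η v.1)) (𝓝 y) (𝓝 (0, 0)) := by
    have h : ContinuousAt (fun v : ℂ × ℂ => (v.1 - y.1, v.2 - η v.1)) y :=
      (continuousAt_fst.sub continuousAt_const).prodMk
        (continuousAt_snd.sub (e1.continuousAt.comp continuousAt_fst))
    simpa only [ContinuousAt, e2, sub_self] using h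
  refine ⟨η, e1, e2, (t2.eventually key).mono fun v hv => ?_⟩
  simpa only [sub_add_cancel, sub_eq_zero] using hv

end Vale.Agent.P267C
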