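import Vale.Agent.P267C.SecA
import Vale.Agent.P267C.Str

/-! Smooth points. -/

open Set Filter Metric Asymptotics
open scoped Manifold ContDiff Topology

noncomputable section

namespace Vale.Agent.P267C

set_option linter.unusedSectionVars false

variable {E : Type} [NormedAddCommGroup E] [NormedSpace ℂ E] [FiniteDimensional ℂ E] {M : Type}
  [TopologicalSpace M] [ChartedSpace E M] [IsManifold 𝓘(ℂ, E) ω M] [T2Space M]
  [SecondCountableTopology M] [ConnectedSpace M]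

variable {N N' : M → ℝ} {c : M → ℂ × ℂ} {ψ : ℂ × ℂ → M} {p : M}

theorem Sm.zero (h : Sm E N p) : N p = 0 := by
  obtain ⟨c, ψ, hc, h⟩ := h
  exact h.self_of_nhds.2 (by rw [hc.c0]; rfl)

theorem Sm.ev (h : Sm E N p) : ∀ᶠ y in 𝓝 p, N y = 0 → Sm E N y := by
  obtain ⟨c, ψ, hc, h⟩ := h
  filter_upwards [hc.shift, h.eventually_nhds] with y h1 h2 hy
  obtain ⟨ψ', h3⟩ := h1 (fun _ => 0) analyticAt_const (h2.self_of_nhds.1 hy).symm
  exact ⟨_, ψ', h3, h2.mono fun x hx => hx.trans sub_eq_zero.symm⟩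

theorem sing_countable (hE : Module.finrank ℂ E = 2) (h : Sec E N) (h0 : ∃ x, N x ≠ 0) :
    {x | N x = 0 ∧ ¬ Sm E N x}.Countable := by
  refine countable_of_loc fun x => ?_
  obtain ⟨f, hf, hθ⟩ := h x
  have hz := hθ.eq_zero_iff
  obtain ⟨c, ψ, hc, h2⟩ := exists_crd hE hf fun h1 =>
    h.ne h0 x ((hz.and h1).mono fun y hy => hy.1.2 hy.2)
  obtain ⟨Q, q0, q1⟩ := str (x := 0) (An.comp_ho (hc.p0.symm ▸ hf) hc.ho) h2
  refine ⟨ψ '' Q, q0.image ψ, ?_⟩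
  filter_upwards [hc.tc.eventually q1, hc.shift, hz.eventually_nhds, hc.l.eventually_nhds,
    hc.an.ev] with y a1 a2 a3 a4 a5 hy
  rcases a1 (by rw [a4.self_of_nhds]; exact a3.self_of_nhds.1 hy.1) with h3 | ⟨η, e1, e2, e3⟩
  · exact ⟨_, h3, a4.self_of_nhds⟩
  · obtain ⟨ψ', h3⟩ := a2 η e1 e2
    refine absurd ⟨_, ψ', h3, ?_⟩ hy.2
    filter_upwards [a3, a4, a5.continuousAt.eventually e3] with v b1 b2 b3
    rw [b2] at b3
    exact b1.trans (b3.trans sub_eq_zero.symm)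

theorem Sec.mult (h : Sec E N) (h0 : ∃ x, N x ≠ 0) (hc : Crd E c ψ p)
    (h1 : ∀ᶠ y in 𝓝 p, N y = 0 → (c y).2 = 0) : ∃ μ : ℕ, N =Θ[𝓝 p] fun y => (c y).2 ^ μ := by
  obtain ⟨f, hf, hθ⟩ := h p
  have hz := hθ.eq_zero_iff
  obtain ⟨μ, h2⟩ := P267C.mult (An.comp_ho (hc.p0.symm ▸ hf) hc.ho) (fun h2 => h.ne h0 p (by
    filter_upwards [hz, hc.tc.eventually h2, hc.l] with y a1 a2 a3
    exact a1.2 (a3 ▸ a2))) (by
    filter_upwards [hc.tψ.eventually hz, hc.tψ.eventually h1, hc.r] with v a1 a2 a3 a4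
    exact a3 ▸ a2 (a1.2 a4))
  have h3 : f =ᶠ[𝓝 p] (fun w => f (ψ w)) ∘ c := hc.l.mono fun y hy => (congrArg f hy).symm
  exact ⟨μ, (hθ.trans h3.isTheta).trans ⟨h2.1.comp_tendsto hc.tc, h2.2.comp_tendsto hc.tc⟩⟩

theorem secb_ev {X F G : Type} [TopologicalSpace X] [Norm F] [Norm G] {f : X → F} {g : X → G}
    {x : X} (h : f =O[𝓝 x] g) : ∀ᶠ y in 𝓝 x, f =O[𝓝 y] g := by
  obtain ⟨C, hC⟩ := isBigO_iff.1 h
  exact hC.eventually_nhds.mono fun y hy => IsBigO.of_bound C hy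

theorem Sec.hart (hE : Module.finrank ℂ E = 2) (h : Sec E N) (h' : Sec E N') {x : M}
    (h1 : ∀ᶠ y in 𝓝[≠] x, N =O[𝓝 y] N') : N =O[𝓝 x] N' := by
  obtain ⟨f, hf, hθ⟩ := h x
  obtain ⟨f', hf', hθ'⟩ := h' x
  obtain ⟨c, ψ, hc, -⟩ := exists_crd hE (f := fun _ : M => (1 : ℂ)) (x := x) contMDiffAt_const
    fun h2 => one_ne_zero h2.self_of_nhds
  have h2 : Tendsto ψ (𝓝[≠] 0) (𝓝[≠] x) := by
    refine tendsto_nhdsWithin_iff.2 ⟨hc.tψ.mono_left nhdsWithin_le_nhds, ?_⟩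
    filter_upwards [nhdsWithin_le_nhds hc.r, self_mem_nhdsWithin] with v a1 a2 a3
    exact a2 (a1.symm.trans ((congrArg c a3).trans hc.c0))
  have h3 := P267C.hart (An.comp_ho (hc.p0.symm ▸ hf) hc.ho)
    (An.comp_ho (hc.p0.symm ▸ hf') hc.ho) (by
      filter_upwards [h2.eventually h1, nhdsWithin_le_nhds (hc.tψ.eventually (secb_ev hθ.2)),
        nhdsWithin_le_nhds (hc.tψ.eventually (secb_ev hθ'.1)), nhdsWithin_le_nhds hc.ho.ev]
        with v a1 a2 a3 a4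
      exact ((a2.trans a1).trans a3).comp_tendsto a4.continuousAt)
  exact (hθ.1.trans ((h3.comp_tendsto hc.tc).congr' (hc.l.mono fun y hy => congrArg f hy)
    (hc.l.mono fun y hy => congrArg f' hy))).trans hθ'.2

/-- The zero set is uncountable near a smooth point. -/
theorem Sm.unc (h : Sm E N p) {Q : Set M} (hQ : Q.Countable) :
    ∃ᶠ y in 𝓝 p, N y = 0 ∧ y ∉ Q := by
  obtain ⟨c, ψ, hc, h⟩ := h
  have := compl_neBot (hQ.image fun y => (c y).1) 0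
  have h1 : Tendsto (fun z : ℂ => (z, (0 : ℂ))) (𝓝[((fun y => (c y).1) '' Q)ᶜ] 0) (𝓝 0) :=
    ((Continuous.prodMk_left (0 : ℂ)).tendsto 0).mono_left nhdsWithin_le_nhds
  refine (hc.tψ.comp h1).frequently (Eventually.frequently ?_)
  filter_upwards [(hc.tψ.comp h1).eventually h, h1.eventually hc.r, self_mem_nhdsWithin]
    with z a1 a2 a3
  exact ⟨a1.2 (congrArg Prod.snd a2), fun a4 => a3 ⟨_, a4, congrArg Prod.fst a2⟩⟩

end Vale.Agent.P267C
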