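import Vale.Agent.P267C.Loc
import Vale.Agent.P267C.SecB

/-! Properness and exceptional values. -/

open Set Filter Metric Asymptotics
open scoped Manifold ContDiff Topology

noncomputable section

namespace Vale.Agent.P267C

set_option linter.unusedSectionVars false

variable {E : Type} [NormedAddCommGroup E] [NormedSpace ℂ E] [FiniteDimensional ℂ E] {M : Type}
  [TopologicalSpace M] [ChartedSpace E M] [IsManifold 𝓘(ℂ, E) ω M] [T2Space M]
  [SecondCountableTopology M] [ConnectedSpace M]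

variable {t N : M → ℝ} {c : M → ℂ × ℂ} {ψ : ℂ × ℂ → M} {p : M} {f : M → ℂ} {κ : ℂ}

theorem Cu.prop_low (h : Cu E t N c ψ p f κ) {r : ℝ} (hr : 0 < r) :
    ∃ a : ℝ, ∀ y, N y = 0 → t y ≤ a → dist (f y) κ < r := by
  have h1 := h.pole.lim.eventually (ball_mem_nhds κ hr)
  rw [eventually_inf_principal, eventually_comap, eventually_atBot] at h1
  obtain ⟨a, ha⟩ := h1
  exact ⟨a, fun y hy hy' => ha _ hy' y rfl hy⟩

theorem Cu.prop_cpt (h : Cu E t N c ψ p f κ) (a : ℝ) {V : Set M} (hV : IsOpen V) :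
    IsCompact {y | N y = 0 ∧ a ≤ t y ∧ y ∉ V} := by
  obtain ⟨T, hT⟩ := h.top
  refine (h.tp a T).of_isClosed_subset
    (h.sec.closed.inter ((isClosed_le continuous_const h.tc).inter hV.isClosed_compl)) ?_
  exact fun y hy => ⟨hy.2.1, hT y hy.1⟩

theorem Cu.prop_ca (h : Cu E t N c ψ p f κ) {y : M} (hy : N y = 0) (hp : y ≠ p) :
    ContinuousAt f y := (h.pole.cd y hy hp).continuousAt

theorem Cu.bdd (h : Cu E t N c ψ p f κ) {U : Set M} (hU : U ∈ 𝓝 p) :
    ∃ R : ℝ, ∀ y, N y = 0 → y ∉ U → ‖f y‖ ≤ R := by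
  obtain ⟨a, ha⟩ := h.prop_low one_pos
  have hK := h.prop_cpt a (V := interior U) isOpen_interior
  have hc : ContinuousOn f {y | N y = 0 ∧ a ≤ t y ∧ y ∉ interior U} := fun y hy =>
    (h.prop_ca hy.1 fun e => hy.2.2 (e ▸ mem_interior_iff_mem_nhds.2 hU)).continuousWithinAt
  obtain ⟨R, hR⟩ := hK.exists_bound_of_continuousOn hc
  refine ⟨max R (‖κ‖ + 1), fun y hy hy' => ?_⟩
  rcases le_total a (t y) with h1 | h1
  · exact (hR y ⟨hy, h1, fun hh => hy' (interior_subset hh)⟩).trans (le_max_left _ _)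
  · have h2 := ha y hy h1
    rw [dist_eq_norm] at h2
    have h3 := norm_le_insert' (f y) κ
    exact le_trans (by linarith) (le_max_right _ _)

theorem Cu.proper (h : Cu E t N c ψ p f κ) {w : ℂ} (hw : w ≠ κ) : ∃ K : Set M, IsCompact K ∧
    (∀ y ∈ K, N y = 0 ∧ y ≠ p) ∧ ∀ᶠ z in 𝓝 w, ∀ y, N y = 0 → y ≠ p → f y = z → y ∈ K := by
  have hr : 0 < dist w κ / 2 := half_pos (dist_pos.2 hw)
  obtain ⟨a, ha⟩ := h.prop_low hr
  obtain ⟨σ, -, -, -, -, h1⟩ := loc_pole h.crd h.sm h.pole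
  have h2 := h1 (‖w‖ + 1)
  rw [eventually_nhdsWithin_iff, _root_.eventually_nhds_iff] at h2
  obtain ⟨V, hV, hVo, hpV⟩ := h2
  refine ⟨_, h.prop_cpt a hVo, fun y hy => ⟨hy.1, fun e => hy.2.2 (e ▸ hpV)⟩, ?_⟩
  filter_upwards [ball_mem_nhds w hr, ball_mem_nhds w one_pos] with z hz hz' y hy hp e
  rw [mem_ball] at hz hz'
  refine ⟨hy, ?_, fun hyV => ?_⟩
  · by_contra hn
    have h3 := ha y hy (not_le.1 hn).le
    rw [e] at h3
    have h4 := dist_triangle_left w κ z
    linarith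
  · have h3 := hV y hyV hp hy
    rw [e] at h3
    rw [dist_eq_norm] at hz'
    have h4 := norm_le_insert' z w
    linarith

/-- The fibres over nearby values stay in a neighbourhood of the fibre. -/
theorem Cu.near (h : Cu E t N c ψ p f κ) {w : ℂ} (hw : w ≠ κ) {R : M → ℂ → Prop}
    (hR : ∀ y, N y = 0 → y ≠ p → f y = w → ∀ᶠ q : M × ℂ in 𝓝 (y, w), N q.1 = 0 → f q.1 = q.2 →
      R q.1 q.2) : ∀ᶠ z in 𝓝 w, ∀ y, N y = 0 → y ≠ p → f y = z → R y z := by
  obtain ⟨K, hK, hK', h1⟩ := h.proper hw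
  have h2 : ∀ᶠ z in 𝓝 w, ∀ y ∈ K, N y = 0 → f y = z → R y z := by
    refine hK.eventually_forall_of_forall_eventually
      (P := fun z y => N y = 0 → f y = z → R y z) fun y hy => ?_
    by_cases e : f y = w
    · exact (continuous_swap.tendsto (w, y)).eventually (hR y (hK' y hy).1 (hK' y hy).2 e)
    · have hc : ContinuousAt (fun q : ℂ × M => f q.2) (w, y) :=
        ContinuousAt.comp (f := Prod.snd) (h.prop_ca (hK' y hy).1 (hK' y hy).2) continuousAt_snd
      filter_upwards [(hc.prodMk continuousAt_fst).eventually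
        (isClosed_diagonal.isOpen_compl.mem_nhds e)] with q hq _ hq'
      exact absurd hq' hq
  filter_upwards [h1, h2] with z hz hz' y hy hp e using hz' y (hz y hy hp e) hy e

theorem Cu.dich (h : Cu E t N c ψ p f κ) {y : M} (hy : Sm E N y) (hp : y ≠ p) :
    Flat {x | N x = 0} f y ∨
      ∀ᶠ x in 𝓝[≠] y, N x = 0 → Good E {x | N x = 0} f x ∧ f x ≠ f y := by
  refine loc_sm hy ?_
  filter_upwards [isOpen_ne.mem_nhds hp] with x hx hx' using h.pole.cd x hx' hx

theorem Cu.sv_countable (h : Cu E t N c ψ p f κ) : (Sv E {x | N x = 0} f p κ).Countable := by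
  refine (Set.Countable.image ?_ f).insert κ
  refine (h.cnt.union (iso_countable {y | y ∈ {x | N x = 0} ∧ y ≠ p ∧
    ¬ Good E {x | N x = 0} f y ∧ ¬ Flat {x | N x = 0} f y})).mono fun y hy => ?_
  by_cases hs : Sm E N y
  · refine Or.inr ⟨hy, ?_⟩
    filter_upwards [(h.dich hs hy.2.1).resolve_left hy.2.2.2] with x hx hx'
    exact hx'.2.2.1 (hx hx'.1).1
  · exact Or.inl ⟨hy.1, hs⟩

theorem Cu.sv_closed (h : Cu E t N c ψ p f κ) : IsClosed (Sv E {x | N x = 0} f p κ) := by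
  refine isOpen_compl_iff.1 (isOpen_iff_mem_nhds.2 fun w hw => ?_)
  have hw' : w ≠ κ := fun e => hw (Or.inl e)
  have h1 := h.near hw' (R := fun y _ => Good E {x | N x = 0} f y ∨ Flat {x | N x = 0} f y)
    fun y hy hp e => by
      have ht : Tendsto (Prod.fst : M × ℂ → M) (𝓝 (y, w)) (𝓝 y) := continuous_fst.tendsto _
      by_cases hg : Good E {x | N x = 0} f y
      · filter_upwards [ht.eventually (hg.ev (h.prop_ca hy hp))] with q hq hq' _
        exact Or.inl (hq hq')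
      · have hf : Flat {x | N x = 0} f y := by
          by_contra hn
          exact hw (Or.inr ⟨y, ⟨hy, hp, hg, hn⟩, e⟩)
        filter_upwards [ht.eventually hf.ev] with q hq hq' _
        exact Or.inr (hq hq')
  filter_upwards [h1, isOpen_ne.mem_nhds hw'] with z hz hz'
  rintro (e | ⟨y, hy, e⟩)
  · exact hz' e
  · exact (hz y hy.1 hy.2.1 e).elim hy.2.2.1 hy.2.2.2

end Vale.Agent.P267C
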