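import Vale.Agent.P267C.Mfd

/-! Norms of sections. -/

open Set Filter Metric Asymptotics
open scoped Manifold ContDiff Topology

noncomputable section

namespace Vale.Agent.P267C

set_option linter.unusedSectionVars false

variable {E : Type} [NormedAddCommGroup E] [NormedSpace ℂ E] [FiniteDimensional ℂ E] {M : Type}
  [TopologicalSpace M] [ChartedSpace E M] [IsManifold 𝓘(ℂ, E) ω M] [T2Space M]
  [SecondCountableTopology M] [ConnectedSpace M]

variable {N N' : M → ℝ} {n : ℕ} {t : M → ℝ} {g : Equiv.Perm M} {S : Fin n → M → ℝ}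

theorem Sec.mul (h : Sec E N) (h' : Sec E N') : Sec E fun x => N x * N' x := fun x => by
  obtain ⟨f, hf, h1⟩ := h x
  obtain ⟨f', hf', h2⟩ := h' x
  exact ⟨fun y => f y * f' y, hf.mul hf', h1.mul h2⟩

theorem Sec.pow (h : Sec E N) (k : ℕ) : Sec E fun x => N x ^ k := fun x => by
  obtain ⟨f, hf, h1⟩ := h x
  exact ⟨fun y => f y ^ k, hf.pow k, h1.pow k⟩

theorem Sec.prod {ι : Type} (W : Finset ι) {A : ι → M → ℝ} (h : ∀ a ∈ W, Sec E (A a)) :
    Sec E fun x => ∏ a ∈ W, A a x := by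
  classical
  induction W using Finset.induction_on with
  | empty =>
    exact fun x => ⟨fun _ => 1, contMDiffAt_const, by
      simp only [Finset.prod_empty]
      exact isTheta_const_const one_ne_zero one_ne_zero⟩
  | insert a W ha ih =>
    simp only [Finset.prod_insert ha]
    exact (h a (Finset.mem_insert_self a W)).mul (ih fun b hb => h b (Finset.mem_insert_of_mem hb))

theorem Sec.closed (h : Sec E N) : IsClosed {x | N x = 0} := by
  refine isClosed_iff_frequently.2 fun x hx => ?_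
  obtain ⟨f, hf, h1⟩ := h x
  refine h1.eq_zero_iff.self_of_nhds.2 (by_contra fun h2 => ?_)
  obtain ⟨y, h3, h4, h5⟩ := (hx.and_eventually (h1.eq_zero_iff.and
    (hf.continuousAt.eventually_ne h2))).exists
  exact h5 (h4.1 h3)

theorem Sec.theta_one (h : Sec E N) {x : M} (hx : N x ≠ 0) : N =Θ[𝓝 x] fun _ => (1 : ℝ) := by
  obtain ⟨f, hf, h1⟩ := h x
  have h2 : f x ≠ 0 := fun e => hx (h1.eq_zero_iff.self_of_nhds.2 e)
  exact (h1.trans (isTheta_of_div_tendsto_nhds_ne_zero (g := f) (f := fun _ => (1 : ℂ))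
    (by simpa only [div_one] using hf.continuousAt.tendsto) h2).symm).trans
    (isTheta_const_const one_ne_zero one_ne_zero)

theorem secA_loc {f : M → ℂ} {x : M} (hf : An E f x) (h : ∃ᶠ y in 𝓝 x, ∀ᶠ z in 𝓝 y, f z = 0) :
    ∀ᶠ y in 𝓝 x, f y = 0 := by
  have e := (chartAt E x).symm_map_nhds_eq (mem_chart_source E x)
  have h1 : Ho E (chartAt E x).symm (chartAt E x x) :=
    contMDiffOn_chart_symm.contMDiffAt (chart_target_mem_nhds E x)
  have h2 := An.comp_ho (f := f) (by rwa [(chartAt E x).left_inv (mem_chart_source E x)]) h1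
  obtain ⟨r, hr, h3⟩ := Metric.eventually_nhds_iff_ball.1 h2.eventually_analyticAt
  rw [← e, frequently_map] at h
  obtain ⟨w, h4, h5, h6⟩ := (h.and_eventually (eventually_mem_set.2
    (inter_mem (ball_mem_nhds _ hr) (chart_target_mem_nhds E x)))).exists
  have h7 := AnalyticOnNhd.eqOn_zero_of_preconnected_of_eventuallyEq_zero h3
    (convex_ball _ _).isPreconnected h5 (((chartAt E x).continuousAt_symm h6).eventually h4)
  rw [← e, eventually_map]
  exact h7.eventuallyEq_of_mem (ball_mem_nhds _ hr)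

theorem Sec.ne (h : Sec E N) (h0 : ∃ x, N x ≠ 0) (x : M) : ¬ ∀ᶠ y in 𝓝 x, N y = 0 := by
  have h1 : IsClopen {x | ∀ᶠ y in 𝓝 x, N y = 0} := by
    refine ⟨isClosed_iff_frequently.2 fun x hx => ?_, isOpen_setOfPred_eventually_nhds⟩
    obtain ⟨f, hf, h1⟩ := h x
    have h2 := secA_loc hf ((hx.and_eventually h1.eq_zero_iff.eventually_nhds).mono fun y hy =>
      (hy.2.and hy.1).mono fun z hz => hz.1.1 hz.2)
    exact (h1.eq_zero_iff.and h2).mono fun z hz => hz.1.2 hz.2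
  obtain ⟨y, hy⟩ := h0
  exact fun hx => hy (show y ∈ {x | ∀ᶠ y in 𝓝 x, N y = 0} from
    h1.eq_univ ⟨x, hx⟩ ▸ mem_univ y).self_of_nhds

/-- The identity theorem along a holomorphic map. -/
theorem Sec.ident (h : Sec E N) {Ω : Set ℂ} (hΩ : IsOpen Ω) (hc : IsPreconnected Ω) {Φ : ℂ → M}
    (hΦ : ∀ w ∈ Ω, Ho E Φ w) :
    (∀ w ∈ Ω, N (Φ w) = 0) ∨ ∀ w ∈ Ω, ∀ᶠ z in 𝓝[≠] w, N (Φ z) ≠ 0 := by
  have h1 : ∀ w ∈ Ω, (∀ᶠ z in 𝓝 w, N (Φ z) = 0) ∨ ∀ᶠ z in 𝓝[≠] w, N (Φ z) ≠ 0 := fun w hw => by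
    obtain ⟨f, hf, h1⟩ := h (Φ w)
    have h2 := (hΦ w hw).continuousAt.eventually h1.eq_zero_iff
    refine (hf.comp_ho (hΦ w hw)).eventually_eq_zero_or_eventually_ne_zero.imp (fun h3 => ?_)
      fun h3 => ?_
    · exact (h2.and h3).mono fun z hz => hz.1.2 hz.2
    · exact ((h2.filter_mono nhdsWithin_le_nhds).and h3).mono fun z hz e => hz.2 (hz.1.1 e)
  refine or_iff_not_imp_right.2 fun h2 w hw => ?_
  have h3 : (Ω ∩ {w | ∀ᶠ z in 𝓝 w, N (Φ z) = 0}).Nonempty := by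
    by_contra h3
    exact h2 fun v hv => (h1 v hv).resolve_left fun e => h3 ⟨v, hv, e⟩
  refine Eventually.self_of_nhds (p := fun z => N (Φ z) = 0) (hc.subset_of_closure_inter_subset
    isOpen_setOfPred_eventually_nhds h3 (fun v hv => by_contra fun h4 => ?_) hw)
  obtain ⟨z, h5, h6⟩ := ((mem_closure_iff_frequently.1 hv.1).and_eventually
    (eventually_nhdsWithin_iff.1 ((h1 v hv.2).resolve_left h4))).exists
  exact h6 (fun e => h4 (show v ∈ {w | ∀ᶠ z in 𝓝 w, N (Φ z) = 0} from e ▸ h5))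
    (Eventually.self_of_nhds (p := fun z => N (Φ z) = 0) h5)

theorem Cv.tk (h : Cv E t g S) (k : ℤ) (x : M) : t ((g ^ k) x) = t x + k := by
  induction k using Int.induction_on generalizing x with
  | zero => simp
  | succ k ih =>
    rw [zpow_add_one, Equiv.Perm.mul_apply, ih, h.tg]
    push_cast
    ring
  | pred k ih =>
    have h1 := h.tg (g⁻¹ x)
    rw [← Equiv.Perm.mul_apply, mul_inv_cancel, Equiv.Perm.one_apply] at h1
    rw [zpow_sub_one, Equiv.Perm.mul_apply, ih, h1]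
    push_cast
    ring

theorem Cv.secN (h : Cv E t g S) (a : Fin n × ℤ) : Sec E (Nk g S a) := fun x => by
  obtain ⟨f, hf, h1⟩ := h.sec a.1 ((g ^ a.2) x)
  have h2 := (h.gh a.2 x).continuousAt
  exact ⟨fun y => f ((g ^ a.2) y), hf.comp x (h.gh a.2 x), h1.1.comp_tendsto h2,
    h1.2.comp_tendsto h2⟩

theorem Cv.secP (h : Cv E t g S) (W : Finset (Fin n × ℤ)) : Sec E (Pr g S W) :=
  Sec.prod W fun a _ => h.secN a

theorem Cv.secW (h : Cv E t g S) (W : Finset (Fin n × ℤ)) (u : Fin n × ℤ → ℕ) :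
    Sec E (Pw g S W u) := Sec.prod W fun a _ => (h.secN a).pow (u a)

theorem Cv.topN (h : Cv E t g S) : ∃ T : ℝ, ∀ a x, Nk g S a x = 0 → t x + a.2 < T := by
  obtain ⟨T, hT⟩ := h.top
  exact ⟨T, fun a x hx => not_le.1 fun e => hT a.1 _ (e.trans_eq (h.tk a.2 x).symm) hx⟩

theorem Cv.topP (h : Cv E t g S) (W : Finset (Fin n × ℤ)) :
    ∃ T : ℝ, ∀ x, Pr g S W x = 0 → t x ≤ T := by
  obtain ⟨T, hT⟩ := h.topN
  refine ⟨T + ∑ a ∈ W, |(a.2 : ℝ)|, fun x hx => ?_⟩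
  obtain ⟨a, ha, h1⟩ := Finset.prod_eq_zero_iff.1 hx
  have h2 := Finset.single_le_sum (f := fun a : Fin n × ℤ => |(a.2 : ℝ)|)
    (fun _ _ => abs_nonneg _) ha
  linarith [hT a x h1, neg_abs_le (a.2 : ℝ)]

theorem secA_big (h : Cv E t g S) (T : ℝ) : ∃ x, T < t x := by
  obtain ⟨x⟩ : Nonempty M := inferInstance
  obtain ⟨k, hk⟩ := exists_int_gt (T - t x)
  exact ⟨(g ^ k) x, by rw [h.tk]; linarith⟩

theorem Cv.neN (h : Cv E t g S) (a : Fin n × ℤ) : ∃ x, Nk g S a x ≠ 0 := by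
  obtain ⟨T, hT⟩ := h.topN
  obtain ⟨x, hx⟩ := secA_big h (T - a.2)
  exact ⟨x, fun e => by linarith [hT a x e]⟩

theorem Cv.neP (h : Cv E t g S) (W : Finset (Fin n × ℤ)) : ∃ x, Pr g S W x ≠ 0 := by
  obtain ⟨T, hT⟩ := h.topP W
  obtain ⟨x, hx⟩ := secA_big h T
  exact ⟨x, fun e => not_le.2 hx (hT x e)⟩

end Vale.Agent.P267C
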