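import Vale.Agent.P267C.Mult

/-! Vertical derivatives. -/

open Set Filter Metric Asymptotics
open scoped Manifold ContDiff Topology

noncomputable section

namespace Vale.Agent.P267C

/-- The `k`-th derivative in the second variable. -/
def dw (k : ℕ) (f : ℂ × ℂ → ℂ) (y : ℂ × ℂ) : ℂ := iteratedDeriv k (fun w => f (y.1, w)) y.2


theorem stra_succ {f : ℂ × ℂ → ℂ} {y : ℂ × ℂ} {k : ℕ} (h : DifferentiableAt ℂ (dw k f) y) :
    dw (k + 1) f y = fderiv ℂ (dw k f) y (0, 1) := by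
  have h1 : HasDerivAt (fun w => dw k f (y.1, w)) (fderiv ℂ (dw k f) y (0, 1)) y.2 :=
    HasFDerivAt.comp_hasDerivAt (f := fun w : ℂ => (y.1, w)) y.2 h.hasFDerivAt
      ((hasDerivAt_const y.2 y.1).prodMk (hasDerivAt_id y.2))
  rw [← h1.deriv, dw, iteratedDeriv_succ]
  rfl

theorem stra_slice {f : ℂ × ℂ → ℂ} {x : ℂ × ℂ} (hf : AnalyticAt ℂ f x) :
    AnalyticAt ℂ (fun w => f (x.1, w)) x.2 :=
  AnalyticAt.comp_of_eq (g := f) (f := fun w : ℂ => (x.1, w)) hf
    (analyticAt_const.prod analyticAt_id) rfl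

theorem stra_ev {p : ℂ × ℂ → Prop} {x : ℂ × ℂ} (h : ∀ᶠ v in 𝓝 x, p v) :
    ∀ᶠ w in 𝓝 x.2, p (x.1, w) :=
  (Continuous.prodMk_right x.1).continuousAt.tendsto.eventually h

theorem dw_an {f : ℂ × ℂ → ℂ} {x : ℂ × ℂ} (hf : AnalyticAt ℂ f x) (k : ℕ) :
    AnalyticAt ℂ (dw k f) x := by

  induction k with
  | zero =>
    have e : dw 0 f = f := funext fun y => by simp [dw]
    rwa [e]
  | succ k ih =>
    have h1 : AnalyticAt ℂ (fun y => fderiv ℂ (dw k f) y (0, 1)) x :=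
      ((ContinuousLinearMap.apply ℂ ℂ ((0, 1) : ℂ × ℂ)).analyticAt _).comp ih.fderiv
    refine h1.congr ?_
    filter_upwards [ih.eventually_analyticAt] with y hy
    exact (stra_succ hy.differentiableAt).symm

theorem dw_ne {f : ℂ × ℂ → ℂ} {x : ℂ × ℂ} (hf : AnalyticAt ℂ f x)
    (hne : ¬ ∀ᶠ w in 𝓝 x.2, f (x.1, w) = 0) : ∃ k, dw k f x ≠ 0 := by

  by_contra h
  push Not at h
  refine hne (analyticOrderAt_eq_top.1 (ENat.eq_top_iff_forall_ge.2 fun n => ?_))
  exact (natCast_le_analyticOrderAt_iff_iteratedDeriv_eq_zero (stra_slice hf)).2 fun i _ => h i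

/-- The implicit function theorem. -/
theorem graph {f : ℂ × ℂ → ℂ} {y : ℂ × ℂ} (hf : AnalyticAt ℂ f y) {k : ℕ} (h0 : dw k f y = 0)
    (h1 : dw (k + 1) f y ≠ 0) : ∃ η : ℂ → ℂ, AnalyticAt ℂ η y.1 ∧ η y.1 = y.2 ∧
      ∀ᶠ v in 𝓝 y, (dw k f v = 0 ↔ v.2 = η v.1) := by

  have ha := dw_an hf k
  have cdf : ContDiffAt ℂ ω (dw k f) y := ha.contDiffAt
  rw [stra_succ ha.differentiableAt] at h1
  have hi : (fderiv ℂ (dw k f) y ∘L ContinuousLinearMap.inr ℂ ℂ ℂ).IsInvertible := by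
    refine ⟨ContinuousLinearEquiv.unitsEquivAut ℂ (Units.mk0 _ h1), ?_⟩
    ext
    simp
  refine ⟨cdf.implicitFunction (by simp) hi,
    (cdf.contDiffAt_implicitFunction (by simp) hi).analyticAt,
    cdf.implicitFunction_apply_self (by simp) hi, ?_⟩
  filter_upwards [cdf.eventually_apply_eq_iff_implicitFunction (by simp) hi] with v hv
  rw [h0] at hv
  exact hv.trans eq_comm

/-- Constant vertical order along the axis. -/
theorem axis {F : ℂ × ℂ → ℂ} (hF : AnalyticAt ℂ F 0) {k : ℕ} (h1 : dw (k + 1) F 0 ≠ 0)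
    (h0 : ∀ j ≤ k, ∀ᶠ z in 𝓝 (0 : ℂ), dw j F (z, 0) = 0) :
    ∀ᶠ v in 𝓝 (0 : ℂ × ℂ), (F v = 0 ↔ v.2 = 0) := by

  have hne : ¬ ∀ᶠ v in 𝓝 (0 : ℂ × ℂ), F v = 0 := fun h => by
    have h2 := analyticOrderAt_eq_top.2 (stra_ev h)
    exact h1 ((natCast_le_analyticOrderAt_iff_iteratedDeriv_eq_zero (n := k + 2)
      (stra_slice hF)).1 (h2 ▸ le_top) (k + 1) (by omega))
  obtain ⟨μ, u, hu, hE, hz⟩ := div_pow hF hne
  have a1 : k < μ := by
    have t : Tendsto (fun z : ℂ => (z, (0 : ℂ))) (𝓝 0) (𝓝 0) :=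
      (Continuous.prodMk_left (0 : ℂ)).continuousAt.tendsto
    have e0 : ∀ᶠ z in 𝓝 (0 : ℂ), ∀ j ∈ Finset.range (k + 1), dw j F (z, 0) = 0 :=
      (Filter.eventually_all_finset _).2 fun j hj => h0 j (Nat.lt_succ_iff.1 (Finset.mem_range.1 hj))
    obtain ⟨z, z1, z2, z3, z4, z5⟩ := ((Filter.not_eventually.1 hz).and_eventually
      (e0.and ((t.eventually hF.eventually_analyticAt).and
        ((t.eventually hu.eventually_analyticAt).and
          (t.eventually hE.eventually_nhds))))).exists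
    have o : analyticOrderAt (fun w => F (z, w)) 0 = μ :=
      (stra_slice z3).analyticOrderAt_eq_natCast.2 ⟨fun w => u (z, w), stra_slice z4, z1, by
        filter_upwards [stra_ev z5] with w hw
        simpa using hw⟩
    have o2 := ((analyticOrderAt_eq_nat_iff_iteratedDeriv_eq_zero (stra_slice z3)).1 o).2
    by_contra hc
    exact o2 (z2 μ (Finset.mem_range.2 (by omega)))
  have a2 : u 0 ≠ 0 := fun h => by
    have o : ((1 : ℕ) : ℕ∞) ≤ analyticOrderAt (fun w => u ((0 : ℂ × ℂ).1, w)) (0 : ℂ × ℂ).2 :=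
      (natCast_le_analyticOrderAt_iff_iteratedDeriv_eq_zero (stra_slice hu)).2 fun i hi => by
        obtain rfl : i = 0 := by omega
        rw [iteratedDeriv_zero]
        exact h
    obtain ⟨g, g1, g2⟩ := (natCast_le_analyticOrderAt (stra_slice hu)).1 o
    have o2 : ((μ + 1 : ℕ) : ℕ∞) ≤ analyticOrderAt (fun w => F ((0 : ℂ × ℂ).1, w)) (0 : ℂ × ℂ).2 :=
      (natCast_le_analyticOrderAt (stra_slice hF)).2 ⟨g, g1, by
        filter_upwards [stra_ev hE, g2] with w hw hw'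
        rw [hw, hw']
        simp only [Prod.snd_zero, sub_zero, smul_eq_mul]
        ring⟩
    exact h1 ((natCast_le_analyticOrderAt_iff_iteratedDeriv_eq_zero (stra_slice hF)).1 o2 (k + 1)
      (by omega))
  filter_upwards [hE, hu.continuousAt.eventually_ne a2] with v hv hv'
  rw [hv, mul_eq_zero, or_iff_left hv', pow_eq_zero_iff (by omega)]

end Vale.Agent.P267C
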